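import Mathlib

/-! Standard monomials in skew commuting linear forms over a division ring. -/

namespace Vale.Agent.P200

open Module MvPolynomial TensorProduct

/-- The linear form with coefficients in `D`, in the ring `D ⊗ (S / I)`. -/
noncomputable def lin {K : Type*} [Field K] {D : Type*} [Ring D] [Algebra K D] {n : ℕ}
    (I : Ideal (MvPolynomial (Fin n) K)) (c : Fin n → D) :
    D ⊗[K] (MvPolynomial (Fin n) K ⧸ I) :=
  ∑ j, c j ⊗ₜ[K] Ideal.Quotient.mk I (X j)

namespace StdAux

open scoped Classical in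
theorem finrank_span_count {D : Type*} [DivisionRing D] {V : Type*} [AddCommGroup V] [Module D V]
    {ι : Type*} [LinearOrder ι] (v : ι → V) (T : Finset ι) :
    finrank D (Submodule.span D (v '' T)) =
      (T.filter fun i => v i ∉ Submodule.span D (v '' {j | j ∈ T ∧ j < i})).card := by
  induction T using Finset.induction_on_max with
  | empty => rw [Finset.coe_empty, Set.image_empty, Submodule.span_empty, finrank_bot]; simp
  | insert a T ha ih =>
    have haT : a ∉ T := fun h => lt_irrefl _ (ha a h)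
    have e1 : ((insert a T).filter fun i =>
        v i ∉ Submodule.span D (v '' {j | j ∈ insert a T ∧ j < i})) =
        (insert a T).filter fun i => v i ∉ Submodule.span D (v '' {j | j ∈ T ∧ j < i}) := by
      refine Finset.filter_congr fun i hi => ?_
      have : {j | j ∈ insert a T ∧ j < i} = {j | j ∈ T ∧ j < i} := by
        ext j
        simp only [Finset.mem_insert, Set.mem_ofPred_eq] at hi ⊢
        constructor
        · rintro ⟨rfl | h, h'⟩
          · rcases hi with rfl | hi
            · exact absurd h' (lt_irrefl _)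
            · exact absurd (h'.trans (ha i hi)) (lt_irrefl _)
          · exact ⟨h, h'⟩
        · exact fun h => ⟨Or.inr h.1, h.2⟩
      rw [this]
    have e2 : {j | j ∈ T ∧ j < a} = (T : Set ι) := by
      ext j
      exact ⟨fun h => h.1, fun h => ⟨h, ha j h⟩⟩
    rw [e1, Finset.filter_insert, e2, Finset.coe_insert, Set.image_insert_eq]
    by_cases h : v a ∈ Submodule.span D (v '' T)
    · rw [if_neg (not_not.mpr h), Submodule.span_insert_eq_span h, ih]
    · rw [if_pos h, Finset.card_insert_of_notMem (fun h' => haT (Finset.mem_filter.mp h').1), ← ih,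
        Submodule.span_insert]
      have hv : v a ≠ 0 := fun h0 => h (h0 ▸ Submodule.zero_mem _)
      have : FiniteDimensional D (Submodule.span D (v '' T)) :=
        FiniteDimensional.span_of_finite D (T.finite_toSet.image v)
      have h2 := Submodule.finrank_sup_add_finrank_inf_eq (Submodule.span D {v a})
        (Submodule.span D (v '' T))
      rw [((Submodule.disjoint_span_singleton' hv).mpr h).symm.eq_bot, finrank_bot,
        finrank_span_singleton hv] at h2
      omega

variable {Z : Type*} [Field Z] {A : Type*} [Ring A] [Algebra Z A]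

/-- Equality up to a nonzero central scalar. -/
def Rel (Z : Type*) [Field Z] [Algebra Z A] (x y : A) : Prop := ∃ c : Z, c ≠ 0 ∧ x = c • y

theorem Rel.refl (x : A) : Rel Z x x := ⟨1, one_ne_zero, (one_smul _ _).symm⟩

theorem Rel.symm {x y : A} (h : Rel Z x y) : Rel Z y x := by
  obtain ⟨c, hc, rfl⟩ := h
  exact ⟨c⁻¹, inv_ne_zero hc, (inv_smul_smul₀ hc y).symm⟩

theorem Rel.trans {x y z : A} (h : Rel Z x y) (h' : Rel Z y z) : Rel Z x z := by
  obtain ⟨c, hc, rfl⟩ := h
  obtain ⟨c', hc', rfl⟩ := h'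
  exact ⟨c * c', mul_ne_zero hc hc', (mul_smul _ _ _).symm⟩

theorem Rel.mul_left {x y : A} (h : Rel Z x y) (z : A) : Rel Z (z * x) (z * y) := by
  obtain ⟨c, hc, rfl⟩ := h
  exact ⟨c, hc, mul_smul_comm _ _ _⟩

theorem Rel.mul_right {x y : A} (h : Rel Z x y) (z : A) : Rel Z (x * z) (y * z) := by
  obtain ⟨c, hc, rfl⟩ := h
  exact ⟨c, hc, smul_mul_assoc _ _ _⟩

theorem Rel.mem {D : Type*} [Ring D] [Algebra Z D] [Module D A] [IsScalarTower Z D A] {x y : A}
    (h : Rel Z x y) {U : Submodule D A} (hy : y ∈ U) : x ∈ U := by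
  obtain ⟨c, -, rfl⟩ := h
  exact U.smul_of_tower_mem c hy

variable {ι : Type*} {φ : ι → A}

theorem rel_perm (hc : ∀ i k, Rel Z (φ i * φ k) (φ k * φ i)) {w w' : List ι} (h : w.Perm w') :
    Rel Z (w.map φ).prod (w'.map φ).prod := by
  induction h with
  | nil => exact Rel.refl _
  | cons x _ ih => simpa using ih.mul_left (φ x)
  | swap x y l => simpa [mul_assoc] using (hc y x).mul_right (l.map φ).prod
  | trans _ _ ih ih' => exact ih.trans ih'

/-- An ordered monomial in noncommuting elements. -/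
noncomputable def mn (φ : ι → A) (α : ι →₀ ℕ) : A := (α.toMultiset.toList.map φ).prod

theorem mn_zero : mn φ 0 = 1 := by simp [mn]

theorem mn_mul (hc : ∀ i k, Rel Z (φ i * φ k) (φ k * φ i)) (α : ι →₀ ℕ) (i : ι) :
    Rel Z (mn φ α * φ i) (mn φ (α + Finsupp.single i 1)) := by
  have := rel_perm hc (w := α.toMultiset.toList ++ [i])
    (w' := (α + Finsupp.single i 1).toMultiset.toList) (by
      rw [← Multiset.coe_eq_coe, ← Multiset.coe_add]; simp)
  simpa [mn] using this

theorem mn_pow (hc : ∀ i k, Rel Z (φ i * φ k) (φ k * φ i)) (i : ι) (a : ℕ) :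
    Rel Z (φ i ^ a) (mn φ (Finsupp.single i a)) := by
  have := rel_perm hc (w := List.replicate a i)
    (w' := (Finsupp.single i a).toMultiset.toList) (by
      rw [← Multiset.coe_eq_coe]; simp [Multiset.nsmul_singleton, Multiset.coe_replicate])
  simpa [mn] using this

theorem mul_mem_span {D : Type*} [Ring D] [Module D A] [IsScalarTower D A A] {s : Set A}
    {U : Submodule D A} {y : A} (h : ∀ x ∈ s, x * y ∈ U) {x : A} (hx : x ∈ Submodule.span D s) :
    x * y ∈ U := by
  induction hx using Submodule.span_induction with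
  | mem x hx => exact h x hx
  | zero => simp
  | add x x' _ _ h1 h2 => rw [add_mul]; exact U.add_mem h1 h2
  | smul d x _ h1 => rw [smul_mul_assoc]; exact U.smul_mem d h1

theorem finrank_restrict {K : Type*} [Field K] {σ : Type*} (T : Finset (σ →₀ ℕ)) :
    finrank K (restrictSupport K (T : Set (σ →₀ ℕ))) = T.card := by
  rw [finrank_eq_card_basis (basisRestrictSupport K (T : Set (σ →₀ ℕ)))]
  simp

theorem mem_hom {K : Type*} [Field K] {σ : Type*} {d : ℕ} {p : MvPolynomial σ K} :
    p ∈ homogeneousSubmodule σ K d ↔ ∀ α ∈ p.support, α.degree = d := by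
  rw [homogeneousSubmodule_eq_finsupp_supported]
  exact Iff.rfl

theorem span_mn {K : Type*} [Field K] [Algebra K Z]
    {D : Type*} [DivisionRing D] [Algebra Z D] [Algebra K D] [IsScalarTower K Z D] {n : ℕ}
    {B : Type*} [CommRing B] [Algebra K B] (π : MvPolynomial (Fin n) K →ₐ[K] B)
    (γ : Fin n → Fin n → D) (φ : Fin n → D ⊗[K] B) (hφ : ∀ i, φ i = ∑ j, γ i j ⊗ₜ[K] π (X j))
    (hc : ∀ i k, Rel Z (φ i * φ k) (φ k * φ i))
    (hspan : Submodule.span D (Set.range γ) = ⊤) (d : ℕ) :
    Submodule.span D (mn φ '' {α | α.degree = d}) =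
      ((homogeneousSubmodule (Fin n) K d).map π.toLinearMap).baseChange D := by
  have hlin : ∀ (i : Fin n) (m : MvPolynomial (Fin n) K),
      ((1 : D) ⊗ₜ[K] π m) * φ i = ∑ j, γ i j ⊗ₜ[K] π (m * X j) := by
    intro c m
    simp [hφ, Finset.mul_sum]
  have hlin' : ∀ (i : Fin n) (m : B), φ i * ((1 : D) ⊗ₜ[K] m) = ((1 : D) ⊗ₜ[K] m) * φ i := by
    intro c m
    simp [hφ, Finset.mul_sum, Finset.sum_mul, mul_comm m]
  have hX : ∀ j, ∃ c : Fin n → D, (1 : D) ⊗ₜ[K] π (X j) = ∑ i, c i • φ i := by
    intro j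
    obtain ⟨c, hc⟩ := (Submodule.mem_span_range_iff_exists_fun D).mp
      (hspan ▸ Submodule.mem_top : Pi.single j (1 : D) ∈ Submodule.span D (Set.range γ))
    refine ⟨c, ?_⟩
    simp only [hφ, Finset.smul_sum, smul_tmul', smul_eq_mul]
    rw [Finset.sum_comm, Finset.sum_eq_single j]
    · have := congrFun hc j
      simp only [Finset.sum_apply, Pi.smul_apply, smul_eq_mul, Pi.single_eq_same] at this
      rw [← sum_tmul, this]
    · intro k _ hk
      have := congrFun hc k
      simp only [Finset.sum_apply, Pi.smul_apply, smul_eq_mul, Pi.single_eq_of_ne hk] at this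
      rw [← sum_tmul, this, zero_tmul]
    · simp
  have hsucc : ∀ {e : ℕ} {α : Fin n →₀ ℕ}, α.degree = e + 1 →
      ∃ β j, α = β + Finsupp.single j 1 ∧ β.degree = e := by
    intro e α hα
    obtain ⟨j, hj⟩ : ∃ j, α j ≠ 0 := by
      by_contra h
      push Not at h
      rw [show α = 0 from Finsupp.ext h] at hα
      simp at hα
    have h1 : α = (α - Finsupp.single j 1) + Finsupp.single j 1 :=
      (tsub_add_cancel_of_le (Finsupp.single_le_iff.mpr (Nat.one_le_iff_ne_zero.mpr hj))).symm
    refine ⟨_, j, h1, ?_⟩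
    rw [h1, map_add, Finsupp.degree_single] at hα
    omega
  have hbc : ∀ e, ((homogeneousSubmodule (Fin n) K e).map π.toLinearMap).baseChange D =
      Submodule.span D ((fun α => (1 : D) ⊗ₜ[K] π (monomial α 1)) '' {α | α.degree = e}) := by
    intro e
    rw [show homogeneousSubmodule (Fin n) K e = restrictSupport K {α | α.degree = e} from
      homogeneousSubmodule_eq_finsupp_supported _ _ _, restrictSupport_eq_span,
      Submodule.map_span, Submodule.baseChange_span, Set.image_image, Set.image_image]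
    rfl
  rw [hbc]
  induction d with
  | zero =>
    simp only [Finsupp.degree_eq_zero_iff, Set.ofPred_eq_eq_singleton, Set.image_singleton, mn_zero,
      monomial_zero', map_one, Algebra.TensorProduct.one_def]
  | succ d ih =>
    apply le_antisymm <;> rw [Submodule.span_le] <;> rintro _ ⟨α, hα, rfl⟩ <;>
      obtain ⟨β, j, rfl, hβ⟩ := hsucc hα
    · have h1 : mn φ β ∈ Submodule.span D
          ((fun α => (1 : D) ⊗ₜ[K] π (monomial α 1)) '' {α | α.degree = d}) := by
        rw [← ih]; exact Submodule.subset_span ⟨β, hβ, rfl⟩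
      refine (mn_mul hc β j).symm.mem (mul_mem_span ?_ h1)
      rintro _ ⟨β', hβ', rfl⟩
      rw [hlin]
      refine Submodule.sum_mem _ fun k _ => ?_
      rw [← mul_one (γ j k), ← smul_eq_mul, ← smul_tmul']
      refine Submodule.smul_mem _ _ (Submodule.subset_span ⟨β' + Finsupp.single k 1, ?_, ?_⟩)
      · simpa using hβ'
      · simp only [X, monomial_mul, mul_one]
    · obtain ⟨c, hj⟩ := hX j
      have : (1 : D) ⊗ₜ[K] π (monomial (β + Finsupp.single j 1) 1) =
          ((1 : D) ⊗ₜ[K] π (X j)) * ((1 : D) ⊗ₜ[K] π (monomial β 1)) := by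
        rw [Algebra.TensorProduct.tmul_mul_tmul, ← map_mul, X, monomial_mul, add_comm, mul_one,
          mul_one]
      have h1 : (1 : D) ⊗ₜ[K] π (monomial β 1) ∈
          Submodule.span D (mn φ '' {α | α.degree = d}) := by
        rw [ih]; exact Submodule.subset_span ⟨β, hβ, rfl⟩
      simp only [SetLike.mem_coe]
      rw [this, hj, Finset.sum_mul]
      refine Submodule.sum_mem _ fun i _ => ?_
      rw [smul_mul_assoc, hlin']
      refine Submodule.smul_mem _ _ (mul_mem_span ?_ h1)
      rintro _ ⟨β', hβ', rfl⟩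
      exact (mn_mul hc β' i).mem (Submodule.subset_span ⟨_, by simpa using hβ', rfl⟩)

theorem std_gen {K : Type*} [Field K] [Algebra K Z]
    {D : Type*} [DivisionRing D] [Algebra Z D] [Algebra K D] [IsScalarTower K Z D] {n : ℕ}
    {B : Type*} [CommRing B] [Algebra K B] (π : MvPolynomial (Fin n) K →ₐ[K] B)
    (γ : Fin n → Fin n → D) (φ : Fin n → D ⊗[K] B) (hφ : ∀ i, φ i = ∑ j, γ i j ⊗ₜ[K] π (X j))
    (hc : ∀ i k, Rel Z (φ i * φ k) (φ k * φ i))
    (hspan : Submodule.span D (Set.range γ) = ⊤)
    (L : Set (Fin n)) (a : Fin n → ℕ) (ha : ∀ l ∈ L, 0 < a l)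
    (hpow : ∀ l ∈ L, φ l ^ a l ∈ Submodule.span D {x | ∃ j, l < j ∧ x = φ j ^ a l}) :
    ∃ s : Set (Fin n →₀ ℕ), (∀ l ∈ L, Finsupp.single l (a l) ∈ s) ∧
      ∀ d : ℕ, finrank K ↥(Submodule.restrictScalars K
          (Ideal.span ((fun α => monomial α (1 : K)) '' s)) ⊓ homogeneousSubmodule (Fin n) K d) =
        finrank K ↥(LinearMap.ker π.toLinearMap ⊓ homogeneousSubmodule (Fin n) K d) := by
  classical
  obtain ⟨s, hs⟩ : ∃ s : Set (Fin n →₀ ℕ), ∀ α, α ∈ s ↔ mn φ α ∈
    Submodule.span D (mn φ '' {β | β.degree = α.degree ∧ toLex β < toLex α}) :=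
    ⟨{α | _}, fun _ => Iff.rfl⟩
  have hs1 : ∀ α ∈ s, ∀ i, α + Finsupp.single i 1 ∈ s := by
    intro α hα i
    rw [hs] at hα ⊢
    refine (mn_mul hc α i).symm.mem (mul_mem_span ?_ hα)
    rintro _ ⟨β, hβ, rfl⟩
    refine (mn_mul hc β i).mem (Submodule.subset_span ⟨_, ⟨by simp [hβ.1], ?_⟩, rfl⟩)
    rw [toLex_add, toLex_add]
    exact add_lt_add_left hβ.2 _
  have hs2 : ∀ α ∈ s, ∀ β, α + β ∈ s := by
    intro α hα β
    induction β using Finsupp.induction_linear generalizing α with
    | zero => simpa using hα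
    | add β β' h h' => rw [← add_assoc]; exact h' _ (h _ hα)
    | single i m =>
      induction m with
      | zero => simpa using hα
      | succ m ih => rw [Finsupp.single_add, ← add_assoc]; exact hs1 _ ih i
  refine ⟨s, fun l hl => ?_, fun d => ?_⟩
  · rw [hs]
    refine (mn_pow hc l (a l)).symm.mem (Submodule.span_le.mpr ?_ (hpow l hl))
    rintro _ ⟨j, hj, rfl⟩
    refine (mn_pow hc j (a l)).mem (Submodule.subset_span ⟨_, ⟨by simp, ?_⟩, rfl⟩)
    refine Finsupp.Lex.lt_iff.mpr ⟨l, fun k hk => ?_, ?_⟩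
    · simp [hk.ne', (hk.trans hj).ne']
    · simp [hj.ne', ha l hl]
  · set T : Finset (Fin n →₀ ℕ) := Finset.univ.finsuppAntidiag d with hT
    have hTm : ∀ α, α ∈ T ↔ α.degree = d := by
      intro α
      simp [hT, Finsupp.degree_eq_sum]
    have e1 : Submodule.restrictScalars K (Ideal.span ((fun α => monomial α (1 : K)) '' s)) ⊓
        homogeneousSubmodule (Fin n) K d = restrictSupport K ↑(T.filter (· ∈ s)) := by
      ext p
      rw [Submodule.mem_inf, Submodule.restrictScalars_mem, mem_ideal_span_monomial_image, mem_hom,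
        mem_restrictSupport_iff]
      constructor
      · rintro ⟨h1, h2⟩ α hα
        obtain ⟨β, hβ, hle⟩ := h1 α hα
        obtain ⟨δ, rfl⟩ := le_iff_exists_add.mp hle
        exact Finset.mem_coe.mpr (Finset.mem_filter.mpr ⟨(hTm _).mpr (h2 _ hα), hs2 _ hβ _⟩)
      · intro h
        exact ⟨fun α hα => ⟨α, (Finset.mem_filter.mp (h hα)).2, le_rfl⟩,
          fun α hα => (hTm _).mp (Finset.mem_filter.mp (h hα)).1⟩
    have e2 : homogeneousSubmodule (Fin n) K d = restrictSupport K ↑T := by
      ext p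
      rw [mem_hom, mem_restrictSupport_iff]
      exact forall₂_congr fun α _ => (hTm α).symm
    have : FiniteDimensional K (homogeneousSubmodule (Fin n) K d) :=
      Module.Finite.iff_fg.mpr (homogeneousSubmodule_fg _ _ _)
    have e3 := (π.toLinearMap.domRestrict
      (homogeneousSubmodule (Fin n) K d)).finrank_range_add_finrank_ker
    rw [LinearMap.range_domRestrict, LinearMap.ker_domRestrict,
      ← Submodule.finrank_map_subtype_eq, Submodule.map_comap_subtype,
      ← finrank_baseChange (R := D), (Submodule.toBaseChange.toLinearEquiv D _).finrank_eq,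
      ← span_mn π γ φ hφ hc hspan] at e3
    have e4 := finrank_span_count (D := D) (fun α : Lex (Fin n →₀ ℕ) => mn φ (ofLex α)) T
    have e5 : (T : Set (Fin n →₀ ℕ)) = {α | α.degree = d} := Set.ext fun α => hTm α
    have e6 : (T.filter fun α => α ∉ s).card = finrank D
        (Submodule.span D (mn φ '' {α | α.degree = d})) := by
      rw [← e5]
      refine Eq.trans ?_ e4.symm
      refine congrArg Finset.card (Finset.filter_congr fun α hα => not_congr ?_)
      have : {β : Fin n →₀ ℕ | β.degree = α.degree ∧ toLex β < toLex α} =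
          {β | β ∈ T ∧ toLex β < toLex α} := by
        ext β
        simp only [Set.mem_ofPred_eq, hTm, (hTm α).mp hα]
      rw [hs, this]
      rfl
    have e8 := Finset.card_filter_add_card_filter_not (s := T) (· ∈ s)
    have e9 : finrank K (homogeneousSubmodule (Fin n) K d) = T.card := by
      rw [e2, finrank_restrict]
    rw [e1, finrank_restrict, inf_comm]
    rw [← e6, e9] at e3
    omega

end StdAux

theorem std {K : Type*} [Field K] {Z : Type*} [Field Z] [Algebra K Z]
    {D : Type*} [DivisionRing D] [Algebra Z D] [Algebra K D] [IsScalarTower K Z D] {n : ℕ}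
    (I : Ideal (MvPolynomial (Fin n) K)) (γ : Fin n → Fin n → D)
    (hcomm : ∀ i k, ∃ ε : Z, ε ≠ 0 ∧ lin I (γ i) * lin I (γ k) = ε • (lin I (γ k) * lin I (γ i)))
    (hspan : Submodule.span D (Set.range γ) = ⊤)
    (L : Set (Fin n)) (a : Fin n → ℕ) (ha : ∀ l ∈ L, 0 < a l)
    (hpow : ∀ l ∈ L, lin I (γ l) ^ a l ∈
      Submodule.span D {x | ∃ j, l < j ∧ x = lin I (γ j) ^ a l}) :
    ∃ s : Set (Fin n →₀ ℕ), (∀ l ∈ L, Finsupp.single l (a l) ∈ s) ∧
      ∀ d : ℕ, finrank K ↥(Submodule.restrictScalars K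
          (Ideal.span ((fun α => monomial α (1 : K)) '' s)) ⊓ homogeneousSubmodule (Fin n) K d) =
        finrank K ↥(Submodule.restrictScalars K I ⊓ homogeneousSubmodule (Fin n) K d) := by
  have e7 : Submodule.restrictScalars K I = LinearMap.ker (Ideal.Quotient.mkₐ K I).toLinearMap := by
    ext p
    simp [Ideal.Quotient.eq_zero_iff_mem]
  rw [e7]
  exact StdAux.std_gen (Z := Z) (Ideal.Quotient.mkₐ K I) γ (fun i => lin I (γ i)) (fun _ => rfl)
    hcomm hspan L a ha hpow

end Vale.Agent.P200
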