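import Mathlib

/-! A homogeneous regular sequence extends by independent linear forms over an infinite
extension field to a system with only the trivial common zero. -/

set_option linter.unusedVariables false

namespace Vale.Agent.P200

open MvPolynomial

namespace SopAux

variable {K : Type*} [Field K] {σ : Type*}

/-- Every prime over `J` missing some variable has height at least `k`. -/
def Ht (J : Ideal (MvPolynomial σ K)) (k : ℕ) : Prop :=
  ∀ p : Ideal (MvPolynomial σ K), p.IsPrime → J ≤ p → (∃ j, X j ∉ p) → (k : ℕ∞) ≤ p.height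

theorem Ht.step {J J' : Ideal (MvPolynomial σ K)} {k : ℕ} (h : Ht J k) (hJ : J ≤ J')
    {x : MvPolynomial σ K} (hx : x ∈ J')
    (hq : ∀ q ∈ J.minimalPrimes, (∃ j, X j ∉ q) → x ∉ q) : Ht J' (k + 1) := by
  rintro p hp hle ⟨j, hj⟩
  obtain ⟨q, hq1, hq2⟩ := Ideal.exists_minimalPrimes_le (hJ.trans hle)
  have hj' : ∃ j, X j ∉ q := ⟨j, fun h => hj (hq2 h)⟩
  have := hq1.isPrime
  have hlt : q < p := lt_of_le_of_ne hq2 fun h => hq q hq1 hj' (h ▸ hle hx)
  refine le_trans ?_ (Ideal.height_add_one_le_of_lt_of_isPrime hlt)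
  push_cast
  exact add_le_add_left (h q this hq1.le hj') 1

attribute [local instance] algebraMvPolynomial in
theorem notMem_of_reg (K' : Type*) [Field K'] [Algebra K K'] {J : Ideal (MvPolynomial σ K)}
    {f : MvPolynomial σ K} (hf : ∀ g, f * g ∈ J → g ∈ J) {q : Ideal (MvPolynomial σ K')}
    (hq : q ∈ (J.map (map (algebraMap K K'))).minimalPrimes) : map (algebraMap K K') f ∉ q := by
  have : Module.Flat (MvPolynomial σ K) (MvPolynomial σ K') :=
    Module.Flat.of_linearEquiv
      (Algebra.IsPushout.equiv K (MvPolynomial σ K) K' (MvPolynomial σ K')).symm.toLinearEquiv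
  have := hq.isPrime
  intro h
  have hp : q.under (MvPolynomial σ K) ∈ J.minimalPrimes := by
    refine ⟨⟨inferInstance, Ideal.map_le_iff_le_comap.mp hq.le⟩, fun p hp hle => ?_⟩
    have := hp.1
    obtain ⟨Q, hQ, hQ', hQ''⟩ := Ideal.exists_ideal_le_liesOver_of_le q hle
    have h1 : J.map (map (algebraMap K K')) ≤ Q := by
      rw [Ideal.map_le_iff_le_comap]
      exact hp.2.trans hQ''.over.le
    rw [hQ''.over]
    exact Ideal.comap_mono (hq.2 ⟨hQ', h1⟩ hQ)
  obtain ⟨y, hy, hy'⟩ := Ideal.exists_mul_mem_of_mem_minimalPrimes hp (x := f) h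
  exact hy (hf y hy')

attribute [local instance] gradedAlgebra in
theorem Ht.final [Fintype σ] {s : Set (MvPolynomial σ K)}
    (hs : ∀ g ∈ s, ∃ a, g.IsHomogeneous a) (h : Ht (Ideal.span s) (Fintype.card σ)) (j : σ) :
    (X j : MvPolynomial σ K) ∈ (Ideal.span s).radical := by
  rw [Ideal.radical_eq_sInf, Submodule.mem_sInf]
  rintro q ⟨hq, hq'⟩
  by_contra hj
  set q' := (Ideal.homogeneousCore (homogeneousSubmodule σ K) q).toIdeal with hqd
  have h1 : q'.IsPrime := hq'.homogeneousCore
  have h2 : q' ≤ q := Ideal.toIdeal_homogeneousCore_le _ _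
  have h3 : Ideal.span s ≤ q' := by
    rw [Ideal.span_le]
    intro g hg
    exact Ideal.mem_homogeneousCore_of_homogeneous_of_mem (hs g hg) (hq (Ideal.subset_span hg))
  have h4 : q' ≤ RingHom.ker (constantCoeff : MvPolynomial σ K →+* K) := by
    refine Ideal.span_le.mpr ?_
    rintro _ ⟨⟨g, d, hd⟩, hg, rfl⟩
    have hd' : g.IsHomogeneous d := hd
    rw [SetLike.mem_coe, RingHom.mem_ker]
    by_contra h0
    have hd0 : d = 0 := by
      by_contra hne
      exact h0 (hd'.coeff_eq_zero (by simpa using Ne.symm hne))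
    subst hd0
    rw [← totalDegree_zero_iff_isHomogeneous, totalDegree_eq_zero_iff_eq_C] at hd'
    refine hq'.ne_top (Ideal.eq_top_of_isUnit_mem _ hg ?_)
    change IsUnit g
    rw [hd']
    exact (IsUnit.mk0 _ h0).map C
  have h5 := RingHom.ker_isPrime (constantCoeff : MvPolynomial σ K →+* K)
  have h6 : q' < RingHom.ker (constantCoeff : MvPolynomial σ K →+* K) :=
    lt_of_le_of_ne h4 fun e => hj (h2 (e ▸ by simp [RingHom.mem_ker]))
  have h7 := (add_le_add_left (h q' h1 h3 ⟨j, fun e => hj (h2 e)⟩) 1).trans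
    (Ideal.height_add_one_le_of_lt_of_isPrime h6)
  have h8 := Ideal.height_le_ringKrullDim_of_isPrime
    (I := RingHom.ker (constantCoeff : MvPolynomial σ K →+* K))
  rw [MvPolynomial.ringKrullDim_of_isNoetherianRing, ringKrullDim_eq_zero_of_field, zero_add,
    Nat.card_eq_fintype_card] at h8
  have h9 := (WithBot.coe_le_coe.mpr h7).trans h8
  norm_cast at h9
  omega

theorem exists_lin [Fintype σ] [Infinite K] (J : Ideal (MvPolynomial σ K)) (c : ℕ) (h : Ht J c)
    (l : ℕ) (hl : l ≤ Fintype.card σ) : ∃ z : Fin l → σ → K, LinearIndependent K z ∧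
      Ht (J ⊔ Ideal.span (Set.range fun l => ∑ j, C (z l j) * X j)) (c + l) := by
  classical
  induction l with
  | zero => exact ⟨Fin.elim0, linearIndependent_empty_type, by simpa using h⟩
  | succ l ih =>
    obtain ⟨z, hz, hJ⟩ := ih (by omega)
    set J' := J ⊔ Ideal.span (Set.range fun l => ∑ j, C (z l j) * X j) with hJ'
    let L : (σ → K) →ₗ[K] MvPolynomial σ K := Fintype.linearCombination K X
    have hL : ∀ w, L w = ∑ j, C (w j) * X j := fun w => by
      simp [L, Fintype.linearCombination_apply, smul_eq_C_mul]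
    have hfin : Finite {q // q ∈ J'.minimalPrimes ∧ ∃ j, X j ∉ q} :=
      ((Ideal.finite_minimalPrimes_of_isNoetherianRing _ J').subset fun q hq => hq.1).to_subtype
    obtain ⟨w, hw⟩ := Submodule.exists_forall_notMem_of_forall_ne_top
      (ι := Option {q // q ∈ J'.minimalPrimes ∧ ∃ j, X j ∉ q}) (K := K) (M := σ → K)
      (fun o => o.elim (Submodule.span K (Set.range z))
        fun q => (q.1.restrictScalars K).comap L) (by
        rintro (_ | ⟨q, hq, j, hj⟩)
        · intro e
          have h1 := finrank_range_le_card (R := K) z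
          simp only [Option.elim] at e
          rw [Set.finrank, e] at h1
          simp at h1
          omega
        · intro e
          simp only [Option.elim] at e
          have : Pi.single j (1 : K) ∈ (q.restrictScalars K).comap L := e ▸ Submodule.mem_top
          simp [L] at this
          exact hj this)
    refine ⟨Fin.cons w z, linearIndependent_finCons.mpr ⟨hz, hw none⟩, ?_⟩
    refine hJ.step (x := L w) (sup_le_sup_left (Ideal.span_mono ?_) _)
      (Ideal.mem_sup_right (Ideal.subset_span ⟨0, by simp [hL]⟩)) fun q hq hj => hw (some ⟨q, hq, hj⟩)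
    rintro _ ⟨i, rfl⟩
    exact ⟨i.succ, by simp⟩

end SopAux

open SopAux in
theorem exists_linear_sop {K : Type*} [Field K] {c m : ℕ}
    (f : Fin c → MvPolynomial (Fin (c + m)) K) (a : Fin c → ℕ) (ha : ∀ i, 0 < a i)
    (hf : ∀ i, (f i).IsHomogeneous (a i))
    (hreg : ∀ i g, f i * g ∈ Ideal.span (f '' {j | j < i}) → g ∈ Ideal.span (f '' {j | j < i}))
    (K' : Type*) [Field K'] [Algebra K K'] [Infinite K'] :
    ∃ z : Fin m → Fin (c + m) → K', LinearIndependent K' z ∧
      ∀ j, (X j : MvPolynomial (Fin (c + m)) K') ∈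
        (Ideal.span (Set.range (fun i => map (algebraMap K K') (f i)) ∪
          Set.range (fun l => ∑ j, C (z l j) * X j))).radical := by
  have h1 : ∀ k ≤ c, Ht ((Ideal.span (f '' {j | j.1 < k})).map (map (algebraMap K K'))) k := by
    intro k hk
    induction k with
    | zero => intro p _ _ _; simp
    | succ k ih =>
      refine (ih (by omega)).step (x := map (algebraMap K K') (f ⟨k, hk⟩))
        (Ideal.map_mono (Ideal.span_mono (Set.image_mono fun j hj => Nat.lt_succ_of_lt hj)))
        (Ideal.mem_map_of_mem _ (Ideal.subset_span ⟨_, Nat.lt_succ_self k, rfl⟩))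
        fun q hq _ => notMem_of_reg K' (hreg ⟨k, hk⟩) hq
  have h2 := h1 c le_rfl
  rw [show {j : Fin c | j.1 < c} = Set.univ from Set.eq_univ_of_forall fun j => j.2,
    Set.image_univ, Ideal.map_span, ← Set.range_comp] at h2
  obtain ⟨z, hz, h3⟩ := exists_lin _ c h2 m (by simp)
  refine ⟨z, hz, Ht.final ?_ ?_⟩
  · rintro g (⟨i, rfl⟩ | ⟨l, rfl⟩)
    · exact ⟨a i, (hf i).map _⟩
    · exact ⟨1, IsHomogeneous.sum _ _ _ fun j _ => (isHomogeneous_X _ j).C_mul _⟩
  · rw [Ideal.span_union, Fintype.card_fin]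
    exact h3

end Vale.Agent.P200
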