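import Vale.Agent.P200.Divis

/-! The Clifford algebra of a generic member of a base point free system of quadrics
(several orthogonal copies) is a division ring. -/

namespace Vale.Agent.P200

open Module MvPolynomial TensorProduct

namespace CliffAux

section words

variable {K : Type*} [Field K] {F : Type*} [Field F] [Algebra K F]
  {D : Type*} [Ring D] [Algebra F D] [Algebra K D] [IsScalarTower K F D] {ι κ Λ : Type*}

omit [Algebra K F] [IsScalarTower K F D] in
theorem filt_mono' (t : κ → F) (w : Λ → D) (dw : Λ → ℕ) {d d' : ℤ} (h : d ≤ d') :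
    filt K t 2 w dw d ≤ filt K t 2 w dw d' :=
  Submodule.span_mono fun _ ⟨β, l, h1, h2⟩ => ⟨β, l, h1.trans h, h2⟩

theorem filt_smul (t : κ → F) (w : Λ → D) (dw : Λ → ℕ) {d : ℤ} (k : κ) {x : D}
    (hx : x ∈ filt K t 2 w dw d) : t k • x ∈ filt K t 2 w dw (d + 2) := by
  induction hx using Submodule.span_induction with
  | mem x hx =>
    obtain ⟨β, l, h1, rfl⟩ := hx
    refine Submodule.subset_span ⟨β + Finsupp.single k 1, l, ?_, ?_⟩
    · rw [map_add, Finsupp.degree_single]
      push_cast at h1 ⊢
      linarith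
    · rw [Finsupp.prod_add_index' (by simp) (fun _ _ _ => pow_add _ _ _), smul_smul, mul_comm]
      simp
  | zero => simp
  | add x y _ _ h1 h2 => rw [smul_add]; exact Submodule.add_mem _ h1 h2
  | smul c x _ h1 => rw [smul_comm]; exact Submodule.smul_mem _ _ h1

theorem filt_le_span (t : κ → F) (w : Λ → D) (dw : Λ → ℕ) {d : ℤ} {x : D}
    (hx : x ∈ filt K t 2 w dw d) : x ∈ Submodule.span F (Set.range w) := by
  induction hx using Submodule.span_induction with
  | mem x hx =>
    obtain ⟨β, l, -, rfl⟩ := hx
    exact Submodule.smul_mem _ _ (Submodule.subset_span ⟨l, rfl⟩)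
  | zero => simp
  | add x y _ _ h1 h2 => exact Submodule.add_mem _ h1 h2
  | smul c x _ h1 => exact Submodule.smul_of_tower_mem _ _ h1

theorem word_mem (t : κ → F) (γ : ι → D) (B : ι → ι → F)
    (hB : ∀ j l, B j l ∈ Submodule.span K (Set.range t))
    (h1 : ∀ j, γ j * γ j = algebraMap F D (B j j))
    (h2 : ∀ j l, γ j * γ l + γ l * γ j = algebraMap F D (B j l + B l j)) (w : List ι) :
    (w.map γ).prod ∈ filt K t 2 (fun S : Finset ι => (S.toList.map γ).prod) Finset.card
      w.length := by
  classical
  set M := filt K t 2 (fun S : Finset ι => (S.toList.map γ).prod) Finset.card with hM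
  induction hn : w.length using Nat.strong_induction_on generalizing w with
  | _ n ih =>
  have hT : ∀ r ∈ Submodule.span K (Set.range t), ∀ u v : List ι, u.length + v.length + 2 = n →
      (u.map γ).prod * algebraMap F D r * (v.map γ).prod ∈ M n := by
    intro r hr u v huv
    have h3 := ih (u ++ v).length (by simp; omega) (u ++ v) rfl
    rw [← Algebra.commutes, mul_assoc, ← List.prod_append, ← List.map_append, ← Algebra.smul_def]
    induction hr using Submodule.span_induction with
    | mem x hx =>
      obtain ⟨k, rfl⟩ := hx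
      have := filt_smul t _ _ k h3
      rwa [show ((u ++ v).length : ℤ) + 2 = n by rw [← huv]; simp] at this
    | zero => simp
    | add x y _ _ h1 h2 => rw [add_smul]; exact Submodule.add_mem _ h1 h2
    | smul c x _ h1 => rw [smul_assoc]; exact Submodule.smul_mem _ _ h1
  have hP : ∀ {v v' : List ι}, v.Perm v' → ∀ u : List ι, u.length + v.length = n →
      ((u ++ v').map γ).prod ∈ M n → ((u ++ v).map γ).prod ∈ M n := by
    intro v v' h
    induction h with
    | nil => exact fun _ _ h => h
    | cons x _ ih' =>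
      intro u hu h
      have := ih' (u ++ [x]) (by simp at hu ⊢; omega) (by simpa using h)
      simpa using this
    | swap x y l =>
      intro u hu h
      have h3 := hT _ (Submodule.add_mem _ (hB x y) (hB y x)) u l (by simp at hu; omega)
      rw [← h2] at h3
      convert Submodule.sub_mem _ h3 h using 1
      simp [mul_add, add_mul, mul_assoc]
    | trans p _ ih1 ih2 => exact fun u hu h => ih1 u hu (ih2 u (p.length_eq ▸ hu) h)
  by_cases hw : w.Nodup
  · refine hP (List.toFinset_toList hw).symm [] (by simpa using hn) ?_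
    refine Submodule.subset_span ⟨0, w.toFinset, ?_, by simp⟩
    simp [List.toFinset_card_of_nodup hw, hn]
  · obtain ⟨j, hj⟩ := List.exists_duplicate_iff_not_nodup.mpr hw
    obtain ⟨v, hv⟩ := (List.duplicate_iff_sublist.mp hj).exists_perm_append
    refine hP hv [] (by simpa using hn) ?_
    have := hT _ (hB j j) [] v (by have := hv.length_eq; simp at this ⊢; omega)
    rw [← h1] at this
    simpa [mul_assoc] using this

theorem sq_eq [Fintype ι] (γ : ι → D) (B : ι → ι → F)
    (h1 : ∀ j, γ j * γ j = algebraMap F D (B j j))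
    (h2 : ∀ j l, γ j * γ l + γ l * γ j = algebraMap F D (B j l + B l j)) :
    (∑ j, (X j : MvPolynomial ι F) ⊗ₜ[F] γ j) ^ 2 =
      (∑ j, ∑ l, C (B j l) * X j * X l) ⊗ₜ[F] (1 : D) := by
  have h3 : ∑ p : ι × ι, (X p.1 * X p.2 : MvPolynomial ι F) ⊗ₜ[F]
      (γ p.1 * γ p.2 - algebraMap F D (B p.1 p.2)) = 0 := by
    refine Finset.sum_involution (fun p _ => p.swap) (fun p _ => ?_) (fun p _ h e => h ?_)
      (fun _ _ => Finset.mem_univ _) (fun _ _ => rfl)
    · simp only [Prod.fst_swap, Prod.snd_swap]
      rw [mul_comm (X p.2), ← tmul_add, sub_add_sub_comm, h2, map_add, sub_self, tmul_zero]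
    · have : p.2 = p.1 := congrArg Prod.fst e
      rw [this, h1, sub_self, tmul_zero]
  simp only [tmul_sub, Finset.sum_sub_distrib, sub_eq_zero, Fintype.sum_prod_type] at h3
  rw [pow_two, Finset.sum_mul_sum]
  simp only [Algebra.TensorProduct.tmul_mul_tmul, h3, sum_tmul]
  refine Finset.sum_congr rfl fun j _ => Finset.sum_congr rfl fun l _ => ?_
  rw [Algebra.algebraMap_eq_smul_one, ← smul_tmul, smul_eq_C_mul, mul_assoc]

theorem unit_of_divis [Fintype ι] [Fintype κ] [Nontrivial D]
    [Algebra (MvPolynomial κ K) F] [IsFractionRing (MvPolynomial κ K) F]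
    [IsScalarTower K (MvPolynomial κ K) F] (b : κ → ι → ι → K)
    (hprim : ∀ j, (X j : MvPolynomial ι K) ∈
      (Ideal.span (Set.range fun k => ∑ j, ∑ l, C (b k j l) * X j * X l)).radical)
    (γ : ι → D) (B : ι → ι → F)
    (hB : ∀ j l, B j l = ∑ k, algebraMap (MvPolynomial κ K) F (X k) * algebraMap K F (b k j l))
    (h1 : ∀ j, γ j * γ j = algebraMap F D (B j j))
    (h2 : ∀ j l, γ j * γ l + γ l * γ j = algebraMap F D (B j l + B l j))
    (hgen : Submodule.span F (Set.range fun w : List ι => (w.map γ).prod) = ⊤) (x : D) :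
    IsUnit x ∨ x = 0 := by
  classical
  have hw := word_mem (K := K) (fun k => algebraMap (MvPolynomial κ K) F (X k)) γ B (fun j l => by
    rw [hB]
    refine Submodule.sum_mem _ fun k _ => ?_
    rw [mul_comm, ← Algebra.smul_def]
    exact Submodule.smul_mem _ _ (Submodule.subset_span ⟨k, rfl⟩)) h1 h2
  have hspan : Submodule.span F (Set.range fun S : Finset ι => (S.toList.map γ).prod) = ⊤ := by
    rw [eq_top_iff, ← hgen, Submodule.span_le]
    rintro _ ⟨w, rfl⟩
    exact filt_le_span _ _ _ (hw w)
  have hfin : FiniteDimensional F D := Module.finite_def.mpr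
    (hspan ▸ Submodule.fg_span (Set.finite_range _))
  have hle : finrank F D ≤ 2 ^ Fintype.card ι := by
    have := finrank_range_le_card (R := F) fun S : Finset ι => (S.toList.map γ).prod
    rwa [Set.finrank, hspan, finrank_top, Fintype.card_finset] at this
  have hinv : ∀ x : D, x ≠ 0 → ∃ y, y * x = 1 := by
    intro x hx
    have hd := divis (K := K) (F := F) 2 le_rfl γ
      (fun k => ∑ j, ∑ l, C (b k j l) * X j * X l)
      (fun k => IsHomogeneous.sum _ _ _ fun j _ => IsHomogeneous.sum _ _ _ fun l _ =>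
        ((isHomogeneous_X _ j).C_mul _).mul (isHomogeneous_X _ l)) hprim (by
        rw [sq_eq γ B h1 h2]
        congr 1
        simp only [hB, map_sum, map_mul, map_C, map_X, Finset.mul_sum, Finset.sum_mul, mul_assoc]
        exact (Finset.sum_comm.trans (Finset.sum_congr rfl fun _ _ => Finset.sum_comm)).symm)
      (fun S : Finset ι => (S.toList.map γ).prod) Finset.card ∅ (by simp)
      (fun j S => by simpa using hw (j :: S.toList))
      ((Submodule.span D {x}).restrictScalars F)
    have hpos : 0 < finrank F ((Submodule.span D {x}).restrictScalars F) :=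
      finrank_pos_iff_exists_ne_zero.mpr
        ⟨⟨x, Submodule.mem_span_singleton_self x⟩, fun h => hx (congrArg Subtype.val h)⟩
    have htop := Submodule.eq_top_of_finrank_eq (le_antisymm (Submodule.finrank_le _)
      (hle.trans (Nat.le_of_dvd hpos hd)))
    have : (1 : D) ∈ (Submodule.span D {x}).restrictScalars F := htop ▸ Submodule.mem_top
    exact Submodule.mem_span_singleton.mp this
  by_cases hx : x = 0
  · exact Or.inr hx
  obtain ⟨y, hy⟩ := hinv x hx
  obtain ⟨z, hz⟩ := hinv y (left_ne_zero_of_mul_eq_one hy)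
  have : x = z := by rw [← one_mul x, ← hz, mul_assoc, hy, mul_one]
  exact Or.inl ⟨⟨x, y, this ▸ hz, hy⟩, rfl⟩

end words

theorem span_rows {K : Type*} [Field K] {D : Type*} [DivisionRing D] [Algebra K D] {c m : ℕ}
    (γ : Fin c → Fin (c + m) → D) (δ : Fin c → Fin (c + m) → D →ₗ[K] D)
    (hδ : ∀ i k x i' j, δ i k (x * γ i' j) = (if i' = i ∧ j = k then x else 0) - δ i k x * γ i' j)
    (z : Fin m → Fin (c + m) → K) (hz : LinearIndependent K z) :
    Submodule.span D (Set.range γ ∪ Set.range (fun l j => algebraMap K D (z l j))) = ⊤ := by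
  rw [← Set.Sum.elim_range]
  by_cases h : LinearIndependent D (Sum.elim γ fun l j => algebraMap K D (z l j))
  · exact h.span_eq_top_of_card_eq_finrank' (by simp)
  rw [Fintype.linearIndependent_iff] at h
  push Not at h
  obtain ⟨e, he, p, hp⟩ := h
  have he' : ∀ j, ∑ i, e (Sum.inl i) * γ i j + ∑ l, z l j • e (Sum.inr l) = 0 := fun j => by
    simpa [Algebra.smul_def, Algebra.commutes] using congrFun he j
  by_cases h0 : ∀ i, e (Sum.inl i) = 0
  · exfalso
    rcases p with i | l
    · exact hp (h0 i)
    · refine hp ((Module.forall_dual_apply_eq_zero_iff K _).mp fun φ => ?_)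
      refine Fintype.linearIndependent_iff.mp hz (fun l => φ (e (Sum.inr l))) (funext fun j => ?_) l
      simpa [h0, mul_comm] using congrArg φ (he' j)
  push Not at h0
  obtain ⟨i, hi⟩ := h0
  rw [eq_top_iff, ← (Pi.basisFun D (Fin (c + m))).span_eq, Submodule.span_le]
  rintro _ ⟨k, rfl⟩
  refine (Submodule.smul_mem_iff _ hi).mp ?_
  have : e (Sum.inl i) • Pi.basisFun D (Fin (c + m)) k = ∑ p : Fin c ⊕ Fin m,
      (Sum.elim (fun i' => δ i k (e (Sum.inl i'))) (fun l => -δ i k (e (Sum.inr l))) p) •
        Sum.elim γ (fun l j => algebraMap K D (z l j)) p := by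
    funext j
    have := congrArg (δ i k) (he' j)
    simp only [map_add, map_sum, hδ, map_smul, map_zero, Finset.sum_sub_distrib, ite_and,
      Finset.sum_ite_eq', Finset.mem_univ, if_true] at this
    simp only [Pi.basisFun_apply, Pi.smul_apply, Pi.single_apply, smul_eq_mul, mul_ite, mul_one,
      mul_zero, Fintype.sum_sum_type, Sum.elim_inl, Sum.elim_inr, Finset.sum_apply,
      Finset.sum_neg_distrib, ← Algebra.commutes, ← Algebra.smul_def, smul_neg]
    refine sub_eq_zero.mp (Eq.trans ?_ this)
    abel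
  rw [this]
  exact Submodule.sum_mem _ fun p _ => Submodule.smul_mem _ _ (Submodule.subset_span ⟨p, rfl⟩)

theorem clifford_gen {F : Type*} [Field F] {ι : Type*} [Fintype ι] [DecidableEq ι]
    (Q : QuadraticForm F (ι → F)) : Submodule.span F (Set.range fun w : List ι =>
      (w.map fun j => CliffordAlgebra.ι Q (Pi.single j 1)).prod) = ⊤ := by
  rw [eq_top_iff]
  rintro x -
  induction x using CliffordAlgebra.induction with
  | algebraMap r =>
    rw [Algebra.algebraMap_eq_smul_one]
    exact Submodule.smul_mem _ _ (Submodule.subset_span ⟨[], rfl⟩)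
  | ι v =>
    rw [← (Pi.basisFun F ι).sum_repr v, map_sum]
    refine Submodule.sum_mem _ fun j _ => ?_
    rw [map_smul]
    exact Submodule.smul_mem _ _ (Submodule.subset_span ⟨[j], by simp⟩)
  | mul x y hx hy =>
    have := Submodule.mul_mem_mul hx hy
    rw [Submodule.span_mul_span] at this
    refine Submodule.span_mono ?_ this
    rintro _ ⟨_, ⟨u, rfl⟩, _, ⟨v, rfl⟩, rfl⟩
    exact ⟨u ++ v, by simp⟩
  | add x y hx hy => exact Submodule.add_mem _ hx hy

end CliffAux

universe u

open CliffAux in
theorem exists_clifford {K : Type u} [Field K] {c m : ℕ} {κ : Type} [Fintype κ]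
    (b : κ → Fin (c + m) → Fin (c + m) → K)
    (hprim : ∀ j, (X j : MvPolynomial (Fin (c + m)) K) ∈
      (Ideal.span (Set.range fun k => ∑ j, ∑ l, C (b k j l) * X j * X l)).radical)
    (z : Fin m → Fin (c + m) → K) (hz : LinearIndependent K z) :
    ∃ (Z : Type u) (_ : Field Z) (_ : Algebra K Z) (D : Type u) (_ : DivisionRing D)
      (_ : Algebra Z D) (γ : Fin c → Fin (c + m) → D) (t : Fin c → κ → Z),
      (∀ i j, γ i j * γ i j = algebraMap Z D (∑ k, t i k * algebraMap K Z (b k j j))) ∧
      (∀ i j l, γ i j * γ i l + γ i l * γ i j =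
        algebraMap Z D (∑ k, t i k * algebraMap K Z (b k j l + b k l j))) ∧
      (∀ i i' j l, i ≠ i' → γ i j * γ i' l = -(γ i' l * γ i j)) ∧
      Submodule.span D (Set.range γ ∪
        Set.range (fun l j => algebraMap Z D (algebraMap K Z (z l j)))) = ⊤ := by
  classical
  let Z := FractionRing (MvPolynomial (Fin c × κ) K)
  let t : Fin c × κ → Z := fun k => algebraMap (MvPolynomial (Fin c × κ) K) Z (X k)
  let b' : Fin c × κ → Fin c × Fin (c + m) → Fin c × Fin (c + m) → K :=
    fun k p q => if p.1 = k.1 then if q.1 = k.1 then b k.2 p.2 q.2 else 0 else 0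
  let B : Matrix (Fin c × Fin (c + m)) (Fin c × Fin (c + m)) Z :=
    fun p q => ∑ k, t k * algebraMap K Z (b' k p q)
  let Q := (Matrix.toBilin' B).toQuadraticMap
  let γ : Fin c × Fin (c + m) → CliffordAlgebra Q := fun p => CliffordAlgebra.ι Q (Pi.single p 1)
  have hnt : Nontrivial (CliffordAlgebra Q) :=
    (CliffordAlgebra.changeFormEquiv (Q := 0) (Q' := Q) (B := Matrix.toBilin' B)
      (sub_zero _).symm).injective.nontrivial
  have h1 : ∀ p, γ p * γ p = algebraMap Z _ (B p p) := fun p => by
    simp only [γ, CliffordAlgebra.ι_sq_scalar, Q, LinearMap.BilinMap.toQuadraticMap_apply,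
      Matrix.toBilin'_single]
  have h2 : ∀ p q, γ p * γ q + γ q * γ p = algebraMap Z _ (B p q + B q p) := fun p q => by
    simp only [γ, CliffordAlgebra.ι_mul_ι_add_swap, Q, LinearMap.BilinMap.polar_toQuadraticMap,
      Matrix.toBilin'_single]
  have hB : ∀ i i' j l, B (i, j) (i', l) =
      if i' = i then ∑ k, t (i, k) * algebraMap K Z (b k j l) else 0 := by
    intro i i' j l
    simp only [B, b', Fintype.sum_prod_type]
    rw [Finset.sum_eq_single i (fun i'' _ h => by simp [h.symm]) (by simp)]
    by_cases h : i' = i <;> simp [h]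
  have hunit := unit_of_divis (K := K) (F := Z) b' (fun p => by
    obtain ⟨n, hn⟩ := hprim p.2
    refine ⟨n, ?_⟩
    have := Ideal.mem_map_of_mem (rename (Prod.mk p.1) : MvPolynomial (Fin (c + m)) K →ₐ[K] _) hn
    rw [map_pow, rename_X, Ideal.map_span] at this
    refine Ideal.span_mono ?_ this
    rintro _ ⟨_, ⟨k, rfl⟩, rfl⟩
    refine ⟨(p.1, k), ?_⟩
    simp [b', Fintype.sum_prod_type, apply_ite C, ite_mul]) γ B (fun _ _ => rfl) h1 h2
    (clifford_gen Q)
  refine ⟨Z, inferInstance, inferInstance, CliffordAlgebra Q, DivisionRing.ofIsUnitOrEqZero hunit,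
    inferInstance, fun i j => γ (i, j), fun i k => t (i, k), fun i j => ?_, fun i j l => ?_,
    fun i i' j l h => ?_, ?_⟩
  · rw [h1, hB, if_pos rfl]
  · rw [h2, hB, hB, if_pos rfl, if_pos rfl, ← Finset.sum_add_distrib]
    simp only [map_add, mul_add]
  · rw [eq_neg_iff_add_eq_zero, h2, hB, hB, if_neg h, if_neg h.symm, add_zero, map_zero]
  · let _ := DivisionRing.ofIsUnitOrEqZero hunit
    simp only [← IsScalarTower.algebraMap_apply]
    refine span_rows (fun i j => γ (i, j)) (fun i k =>
      ((CliffordAlgebra.contractRight (Q := Q)).flip (LinearMap.proj (i, k))).restrictScalars K)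
      (fun i k x i' j => ?_) z hz
    simp only [γ, LinearMap.restrictScalars_apply, LinearMap.flip_apply,
      CliffordAlgebra.contractRight_mul_ι, LinearMap.proj_apply, Pi.single_apply, Prod.mk.injEq,
      ite_smul, one_smul, zero_smul, eq_comm]

end Vale.Agent.P200
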