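import Vale.Agent.P200.HS

/-! Euler characteristic of a two-periodic curved complex, via iterated mapping cones. -/

namespace Vale.Agent.P200

open Module

universe w

variable {K : Type*} [Field K] {R : Type*} [CommRing R] [Algebra K R]
variable {G : Type*} [AddCommGroup G]

section Aux

variable {V : Type*} [AddCommGroup V] [Module K V]

/-- The product of two subspaces is the product of the underlying spaces. -/
def prodSubEquiv (A B : Submodule K V) : (A.prod B) ≃ₗ[K] A × B where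
  toFun x := (⟨x.1.1, x.2.1⟩, ⟨x.1.2, x.2.2⟩)
  invFun x := ⟨(x.1.1, x.2.1), ⟨x.1.2, x.2.2⟩⟩
  map_add' _ _ := rfl
  map_smul' _ _ := rfl
  left_inv _ := rfl
  right_inv _ := rfl

/-- Product of a family with a shifted family. -/
def prodFam (X Y : G → Submodule K V) (c : G) : G → Submodule K (V × V) :=
  fun g => (X g).prod (Y (g - c))

theorem mem_prodFam {X Y : G → Submodule K V} {c g : G} {x : V × V} :
    x ∈ prodFam X Y c g ↔ x.1 ∈ X g ∧ x.2 ∈ Y (g - c) := Iff.rfl

theorem finDim_prodFam {X Y : G → Submodule K V} (hX : FinDim X) (hY : FinDim Y) (c : G) :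
    FinDim (prodFam X Y c) := fun g => by
  have := hX g
  have := hY (g - c)
  exact LinearEquiv.finiteDimensional (prodSubEquiv (X g) (Y (g - c))).symm

theorem hf_prodFam {X Y : G → Submodule K V} (hX : FinDim X) (hY : FinDim Y) (c : G) :
    hf (prodFam X Y c) = hf X + act (mon c) (hf Y) := by
  funext g
  have := hX g
  have := hY (g - c)
  have h : finrank K (prodFam X Y c g) = finrank K (X g) + finrank K (Y (g - c)) := by
    rw [← Module.finrank_prod]
    exact (prodSubEquiv (X g) (Y (g - c))).finrank_eq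
  simp only [hf, act_mon, Pi.add_apply, shift_apply]
  omega

omit [AddCommGroup G] in
theorem mem_of_deg_eq {X : G → Submodule K V} {g g' : G} {x : V} (h : x ∈ X g) (hg : g = g') :
    x ∈ X g' := hg ▸ h

variable [Module R V]

omit [Algebra K R] in
theorem Maps.prodFam {X Y : G → Submodule K V} {r : R} {a : G} (hX : Maps r a X X)
    (hY : Maps r a Y Y) (c : G) : Maps r a (prodFam X Y c) (prodFam X Y c) :=
  fun g x hx => ⟨hX g x.1 hx.1, mem_of_deg_eq (hY _ x.2 hx.2) (by abel)⟩

omit [Algebra K R] in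
theorem Gen_mono {I : Type*} {T : I → R} {e : I → G} {s t : Set (G × V)} (h : s ⊆ t) :
    Gen K T e s ≤ Gen K T e t :=
  Gen_le (Gen_stable T e t) fun _ hp => mem_Gen T e (h hp)

omit [Algebra K R] in
theorem fGen_prodFam {I : Type*} {T : I → R} {e : I → G} {X Y : G → Submodule K V}
    (hX : FGen T e X) (hY : FGen T e Y) (c : G) : FGen T e (prodFam X Y c) := by
  obtain ⟨s, hs, hsX, hXs⟩ := hX
  obtain ⟨t, ht, htY, hYt⟩ := hY
  let S : Set (G × (V × V)) := (fun p : G × V => (p.1, (p.2, (0 : V)))) '' s ∪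
    (fun p : G × V => (p.1 + c, ((0 : V), p.2))) '' t
  refine ⟨S, (hs.image _).union (ht.image _), ?_, ?_⟩
  · rintro _ (⟨p, hp, rfl⟩ | ⟨p, hp, rfl⟩)
    · exact ⟨hsX p hp, Submodule.zero_mem _⟩
    · exact ⟨Submodule.zero_mem _, mem_of_deg_eq (htY p hp) (by simp)⟩
  · have h1 : Gen K T e s ≤ fun g => (Gen K T e S g).comap (LinearMap.inl K V V) := by
      refine Gen_le (fun i g v hv => ?_) fun p hp => ?_
      · have := Gen_stable T e S i g _ hv
        simpa using this
      · exact mem_Gen T e (s := S) (p := (p.1, (p.2, (0 : V)))) (Or.inl ⟨p, hp, rfl⟩)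
    have h2 : Gen K T e t ≤ fun g => (Gen K T e S (g + c)).comap (LinearMap.inr K V V) := by
      refine Gen_le (fun i g v hv => ?_) fun p hp => ?_
      · have := Gen_stable T e S i _ _ hv
        rw [add_right_comm] at this
        simpa using this
      · exact mem_Gen T e (s := S) (p := (p.1 + c, ((0 : V), p.2))) (Or.inr ⟨p, hp, rfl⟩)
    intro g x hx
    have a1 : (x.1, (0 : V)) ∈ Gen K T e S g := h1 g (hXs g hx.1)
    have a2 : ((0 : V), x.2) ∈ Gen K T e S (g - c + c) := h2 _ (hYt _ hx.2)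
    rw [sub_add_cancel] at a2
    simpa using (Gen K T e S g).add_mem a1 a2

/-- The ring element `r` of degree `a` acts as a null-homotopic map. -/
def NullHom (u v : G) (X0 X1 : G → Submodule K V) (d0 d1 : V →ₗ[R] V) (a : G) (r : R) : Prop :=
  ∃ h0 h1 : V →ₗ[R] V, (∀ g x, x ∈ X0 g → h0 x ∈ X1 (g + a - v)) ∧
    (∀ g x, x ∈ X1 g → h1 x ∈ X0 (g + a - u)) ∧ (∀ x, r • x = d1 (h0 x) + h1 (d0 x)) ∧
    (∀ x, r • x = d0 (h1 x) + h0 (d1 x))

/-- The differential of the cone. -/
def coneD (d d' : V →ₗ[R] V) (τ q : R) : V × V →ₗ[R] V × V :=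
  LinearMap.prod (d ∘ₗ LinearMap.fst R V V + τ • LinearMap.snd R V V)
    (-(q • LinearMap.fst R V V) - d' ∘ₗ LinearMap.snd R V V)

@[simp] theorem coneD_apply (d d' : V →ₗ[R] V) (τ q : R) (x : V × V) :
    coneD d d' τ q x = (d x.1 + τ • x.2, -(q • x.1) - d' x.2) := rfl

variable [IsScalarTower K R V]

theorem hs_homology {I : Type*} [Finite I] (T : I → R) (e : I → G) (v : G)
    (X0 X1 : G → Submodule K V) (d0 d1 : V →ₗ[R] V)
    (hs0 : Stable T e X0) (hs1 : Stable T e X1) (hg0 : FGen T e X0) (hf0 : FinDim X0)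
    (hd1 : ∀ g x, x ∈ X1 g → d1 x ∈ X0 (g + v)) (h01 : ∀ x, d0 (d1 x) = 0)
    (I0 : Finset I) (N : Set (G × R))
    (hN : ∀ p ∈ N, ∃ h0 h1 : V →ₗ[R] V, (∀ g x, x ∈ X0 g → h0 x ∈ X1 (g + p.1 - v)) ∧
      (∀ x, p.2 • x = d1 (h0 x) + h1 (d0 x)))
    (hnil : ∀ i, i ∉ I0 → ∃ m : ℕ, T i ^ m ∈ Gen K T e N (m • e i)) (J : Finset I)
    (hJ : ∀ i, i ∈ J) :
    (∃ p, act (∏ i ∈ I0, (1 - mon (e i)))
      (hf (fun g => X0 g ⊓ LinearMap.ker (d0.restrictScalars K)) -
        hf (fun g => (X1 (g - v)).map (d1.restrictScalars K))) = emb p) ∧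
    (∃ p, act (∏ i ∈ J, (1 - mon (e i)))
      (hf (fun g => (X1 (g - v)).map (d1.restrictScalars K))) = emb p) := by
  have hZ : Stable T e (fun g => X0 g ⊓ LinearMap.ker (d0.restrictScalars K)) := by
    intro i g x hx
    refine ⟨hs0 i g x hx.1, ?_⟩
    have : d0 x = 0 := hx.2
    change d0 (T i • x) = 0
    rw [map_smul, this, smul_zero]
  have hB : Stable T e (fun g => (X1 (g - v)).map (d1.restrictScalars K)) := by
    rintro i g _ ⟨x, hx, rfl⟩
    exact ⟨T i • x, mem_of_deg_eq (hs1 i _ x hx) (by abel), by simp⟩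
  have hBZ : (fun g => (X1 (g - v)).map (d1.restrictScalars K)) ≤
      (fun g => X0 g ⊓ LinearMap.ker (d0.restrictScalars K)) := by
    rintro g _ ⟨x, hx, rfl⟩
    exact ⟨mem_of_deg_eq (hd1 _ x hx) (by abel), h01 x⟩
  have hZX : (fun g => X0 g ⊓ LinearMap.ker (d0.restrictScalars K)) ≤ X0 := fun _ => inf_le_left
  constructor
  · refine hilbertSerre T e X0 hg0 hf0 I0 _ _ hZ hB hBZ hZX fun i hi => ?_
    obtain ⟨m, hm⟩ := hnil i hi
    refine ⟨m, Maps.of_mem_Gen hB (fun p hp g x hx => ?_) hm⟩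
    obtain ⟨h0, h1, a1, a2⟩ := hN p hp
    have : d0 x = 0 := hx.2
    exact ⟨h0 x, a1 g x hx.1, by rw [a2, this, map_zero, add_zero]; rfl⟩
  · obtain ⟨p, hp⟩ := hilbertSerre T e X0 hg0 hf0 J _ (fun _ => ⊥) hB
      (fun i g x hx => by
        rw [(Submodule.mem_bot K).1 hx, smul_zero]
        exact Submodule.zero_mem _) (fun _ => bot_le) (hBZ.trans hZX)
      (fun i hi => absurd (hJ i) hi)
    have h0 : hf (fun _ : G => (⊥ : Submodule K V)) = 0 := by
      funext g
      simp [hf]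
    rw [h0, sub_zero] at hp
    exact ⟨p, hp⟩

end Aux

theorem cone_gen {I : Type*} [Fintype I] [DecidableEq I] (T : I → R) (e : I → G) (u v : G)
    (I0 : Finset I) (L : List (G × R × R))
    (hL : ∀ p ∈ L, p.2.1 ∈ Gen K T e {((0 : G), (1 : R))} p.1 ∧
      p.2.2 ∈ Gen K T e {((0 : G), (1 : R))} (u + v - p.1)) :
    ∀ (V : Type w) [AddCommGroup V] [Module K V] [Module R V] [IsScalarTower K R V]
    (X0 X1 : G → Submodule K V) (d0 d1 : V →ₗ[R] V)
    (_ : Stable T e X0) (_ : Stable T e X1) (_ : FGen T e X0) (_ : FGen T e X1)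
    (_ : FinDim X0) (_ : FinDim X1)
    (_ : ∀ g x, x ∈ X0 g → d0 x ∈ X1 (g + u)) (_ : ∀ g x, x ∈ X1 g → d1 x ∈ X0 (g + v))
    (_ : ∀ x, d1 (d0 x) = (L.map fun p => p.2.1 * p.2.2).sum • x)
    (_ : ∀ x, d0 (d1 x) = (L.map fun p => p.2.1 * p.2.2).sum • x)
    (N : Set (G × R)) (_ : ∀ p ∈ N, NullHom u v X0 X1 d0 d1 p.1 p.2)
    (_ : ∀ i, i ∉ I0 → ∃ m : ℕ, T i ^ m ∈
      Gen K T e (N ∪ {x | ∃ p ∈ L, x = (p.1, p.2.1) ∨ x = (u + v - p.1, p.2.2)}) (m • e i))
    (p0 p1 : AddMonoidAlgebra ℤ G)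
    (_ : act (∏ i, (1 - mon (e i))) (hf X0) = emb p0)
    (_ : act (∏ i, (1 - mon (e i))) (hf X1) = emb p1),
    (L.map fun p => 1 - mon p.1).prod * (mon u * p0 - p1) ∈
      Ideal.span {∏ i ∈ I0ᶜ, (1 - mon (e i)), mon (u + v) - 1} := by
  induction L with
  | nil =>
    intro V _ _ _ _ X0 X1 d0 d1 hs0 hs1 hg0 hg1 hf0 hf1 hd0 hd1 h10 h01 N hN hnil p0 p1 hp0 hp1
    simp only [List.map_nil, List.sum_nil, zero_smul, List.not_mem_nil, false_and, exists_false,
      Set.ofPred_false, Set.union_empty, List.prod_nil, one_mul] at h10 h01 hnil ⊢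
    obtain ⟨⟨a0, ha0⟩, ⟨b, hb⟩⟩ := hs_homology T e v X0 X1 d0 d1 hs0 hs1 hg0 hf0 hd1 h01 I0 N
      (fun p hp => by
        obtain ⟨h0, h1, c1, -, c3, -⟩ := hN p hp
        exact ⟨h0, h1, c1, c3⟩) hnil Finset.univ Finset.mem_univ
    obtain ⟨⟨a1, ha1⟩, -⟩ := hs_homology T e u X1 X0 d1 d0 hs1 hs0 hg1 hf1 hd0 h10 I0 N
      (fun p hp => by
        obtain ⟨h0, h1, -, c2, -, c4⟩ := hN p hp
        exact ⟨h1, h0, c2, c4⟩) hnil Finset.univ Finset.mem_univ
    have key : act (mon u) (hf X0) - hf X1 =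
        act (mon u) (hf (fun g => X0 g ⊓ LinearMap.ker (d0.restrictScalars K)) -
          hf (fun g => (X1 (g - v)).map (d1.restrictScalars K))) -
        (hf (fun g => X1 g ⊓ LinearMap.ker (d1.restrictScalars K)) -
          hf (fun g => (X0 (g - u)).map (d0.restrictScalars K))) +
        act (mon u - mon (-v)) (hf (fun g => (X1 (g - v)).map (d1.restrictScalars K))) := by
      funext g
      have := hf0 (g - u)
      have := hf1 g
      have r0 := finrank_map_add_finrank_inf_ker (d0.restrictScalars K) (X0 (g - u))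
      have r1 := finrank_map_add_finrank_inf_ker (d1.restrictScalars K) (X1 g)
      have e1 : hf (fun g => (X1 (g - v)).map (d1.restrictScalars K)) (g - -v) =
          finrank K ((X1 g).map (d1.restrictScalars K)) := by
        have : g - -v - v = g := by abel
        change (finrank K ((X1 (g - -v - v)).map (d1.restrictScalars K)) : ℤ) = _
        rw [this]
      simp only [map_sub, act_mon, LinearMap.sub_apply, Pi.sub_apply, Pi.add_apply, shift_apply, e1]
      simp only [hf]
      omega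
    have hcomm : ∀ (p q : AddMonoidAlgebra ℤ G) (h : G → ℤ),
        act p (act q h) = act q (act p h) := by
      intro p q h
      rw [← Module.End.mul_apply, ← map_mul, mul_comm, map_mul, Module.End.mul_apply]
    have hsplit : ∀ h : G → ℤ, act (∏ i, (1 - mon (e i))) h =
        act (∏ i ∈ I0ᶜ, (1 - mon (e i))) (act (∏ i ∈ I0, (1 - mon (e i))) h) := by
      intro h
      rw [← Module.End.mul_apply, ← map_mul, mul_comm, Finset.prod_mul_prod_compl]
    have key2 := congrArg (act (∏ i, (1 - mon (e i)))) key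
    rw [map_sub, map_add, map_sub (act (∏ i, (1 - mon (e i)))) (act (mon u) _), hcomm, hp0, hp1,
      hcomm _ (mon u), hcomm _ (mon u - mon (-v)), hb, hsplit, hsplit, ha0, ha1] at key2
    simp only [act_emb, ← emb_sub, ← emb_add] at key2
    rw [emb_injective key2, Ideal.mem_span_pair]
    refine ⟨mon u * a0 - a1, mon (-v) * b, ?_⟩
    have e2 : mon (-v) * mon (u + v) = mon u := by
      rw [← mon_add]
      congr 1
      abel
    linear_combination b * e2
  | cons p L ih =>
    obtain ⟨a, τ, q⟩ := p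
    intro V _ _ _ _ X0 X1 d0 d1 hs0 hs1 hg0 hg1 hf0 hf1 hd0 hd1 h10 h01 N hN hnil p0 p1 hp0 hp1
    obtain ⟨hτ, hq⟩ := hL (a, τ, q) List.mem_cons_self
    have τ0 : Maps τ a X0 X0 := Maps.of_mem_Gen_one hs0 hτ
    have τ1 : Maps τ a X1 X1 := Maps.of_mem_Gen_one hs1 hτ
    have q0 : Maps q (u + v - a) X0 X0 := Maps.of_mem_Gen_one hs0 hq
    have q1 : Maps q (u + v - a) X1 X1 := Maps.of_mem_Gen_one hs1 hq
    simp only [List.map_cons, List.sum_cons] at h10 h01
    have hcomm : ∀ (p q : AddMonoidAlgebra ℤ G) (h : G → ℤ),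
        act p (act q h) = act q (act p h) := by
      intro p q h
      rw [← Module.End.mul_apply, ← map_mul, mul_comm, map_mul, Module.End.mul_apply]
    have main := ih (fun p hp => hL p (List.mem_cons_of_mem _ hp)) (V × V)
      (prodFam X0 X1 (a - u)) (prodFam X1 X0 (a - v)) (coneD d0 d1 τ q) (coneD d1 d0 τ q)
      (fun i => Maps.prodFam (hs0 i) (hs1 i) _) (fun i => Maps.prodFam (hs1 i) (hs0 i) _)
      (fGen_prodFam hg0 hg1 _) (fGen_prodFam hg1 hg0 _)
      (finDim_prodFam hf0 hf1 _) (finDim_prodFam hf1 hf0 _)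
      (fun g x hx => ⟨(X1 _).add_mem (hd0 g _ hx.1) (mem_of_deg_eq (τ1 _ _ hx.2) (by abel)),
        (X0 _).sub_mem ((X0 _).neg_mem (mem_of_deg_eq (q0 _ _ hx.1) (by abel)))
          (mem_of_deg_eq (hd1 _ _ hx.2) (by abel))⟩)
      (fun g x hx => ⟨(X0 _).add_mem (hd1 g _ hx.1) (mem_of_deg_eq (τ0 _ _ hx.2) (by abel)),
        (X1 _).sub_mem ((X1 _).neg_mem (mem_of_deg_eq (q1 _ _ hx.1) (by abel)))
          (mem_of_deg_eq (hd0 _ _ hx.2) (by abel))⟩)
      (fun x => by
        simp only [coneD_apply, map_add, map_sub, map_neg, map_smul, h10, h01]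
        refine Prod.ext ?_ ?_
        · simp only [Prod.smul_fst]
          module
        · simp only [Prod.smul_snd]
          module)
      (fun x => by
        simp only [coneD_apply, map_add, map_sub, map_neg, map_smul, h10, h01]
        refine Prod.ext ?_ ?_
        · simp only [Prod.smul_fst]
          module
        · simp only [Prod.smul_snd]
          module)
      (N ∪ {(a, τ), (u + v - a, q)})
      (by
        rintro p (hp | rfl | rfl)
        · obtain ⟨h0, h1, c1, c2, c3, c4⟩ := hN p hp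
          refine ⟨h0.prodMap (-h1), h1.prodMap (-h0),
            fun g x hx => ⟨c1 g _ hx.1, (X0 _).neg_mem (mem_of_deg_eq (c2 _ _ hx.2) (by abel))⟩,
            fun g x hx => ⟨c2 g _ hx.1, (X1 _).neg_mem (mem_of_deg_eq (c1 _ _ hx.2) (by abel))⟩,
            fun x => Prod.ext ?_ ?_, fun x => Prod.ext ?_ ?_⟩
          · simp only [Prod.smul_fst, coneD_apply, LinearMap.prodMap_apply, LinearMap.neg_apply,
              Prod.fst_add, map_add, map_smul, c3]
            module
          · simp only [Prod.smul_snd, coneD_apply, LinearMap.prodMap_apply, LinearMap.neg_apply,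
              Prod.snd_add, map_sub, map_neg, map_smul, c4]
            module
          · simp only [Prod.smul_fst, coneD_apply, LinearMap.prodMap_apply, LinearMap.neg_apply,
              Prod.fst_add, map_add, map_smul, c4]
            module
          · simp only [Prod.smul_snd, coneD_apply, LinearMap.prodMap_apply, LinearMap.neg_apply,
              Prod.snd_add, map_sub, map_neg, map_smul, c3]
            module
        · refine ⟨LinearMap.inr R V V ∘ₗ LinearMap.fst R V V,
            LinearMap.inr R V V ∘ₗ LinearMap.fst R V V,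
            fun g x hx => ⟨Submodule.zero_mem _, mem_of_deg_eq hx.1 (by abel)⟩,
            fun g x hx => ⟨Submodule.zero_mem _, mem_of_deg_eq hx.1 (by abel)⟩,
            fun x => Prod.ext ?_ ?_, fun x => Prod.ext ?_ ?_⟩ <;> simp
        · refine ⟨-(LinearMap.inl R V V ∘ₗ LinearMap.snd R V V),
            -(LinearMap.inl R V V ∘ₗ LinearMap.snd R V V),
            fun g x hx => ⟨?_, ?_⟩, fun g x hx => ⟨?_, ?_⟩,
            fun x => Prod.ext ?_ ?_, fun x => Prod.ext ?_ ?_⟩
          · exact (X1 _).neg_mem (mem_of_deg_eq hx.2 (by dsimp only; abel))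
          · simp
          · exact (X0 _).neg_mem (mem_of_deg_eq hx.2 (by dsimp only; abel))
          · simp
          all_goals simp)
      (fun i hi => by
        obtain ⟨m, hm⟩ := hnil i hi
        refine ⟨m, Gen_mono ?_ _ hm⟩
        rintro x (hx | ⟨p, hp, hx⟩)
        · exact Or.inl (Or.inl hx)
        · rcases List.mem_cons.1 hp with rfl | hp
          · exact Or.inl (Or.inr hx)
          · exact Or.inr ⟨p, hp, hx⟩)
      (p0 + mon (a - u) * p1) (p1 + mon (a - v) * p0)
      (by rw [hf_prodFam hf0 hf1, map_add, hcomm, hp0, hp1, act_emb, emb_add])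
      (by rw [hf_prodFam hf1 hf0, map_add, hcomm, hp0, hp1, act_emb, emb_add])
    have e1 : mon u * mon (a - u) = mon a := by
      rw [← mon_add]
      congr 1
      abel
    have e2 : mon (a - v) * mon (u + v) = mon a * mon u := by
      rw [← mon_add, ← mon_add]
      congr 1
      abel
    have e3 : ((a, τ, q) :: L |>.map fun p => 1 - mon p.1).prod * (mon u * p0 - p1) =
        (L.map fun p => 1 - mon p.1).prod *
          (mon u * (p0 + mon (a - u) * p1) - (p1 + mon (a - v) * p0)) -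
        ((L.map fun p => 1 - mon p.1).prod * mon (a - v) * p0) * (mon (u + v) - 1) := by
      simp only [List.map_cons, List.prod_cons]
      linear_combination (-(L.map fun p => 1 - mon p.1).prod * p1) * e1 +
        ((L.map fun p => 1 - mon p.1).prod * p0) * e2
    rw [e3]
    exact Ideal.sub_mem _ main (Ideal.mul_mem_left _ _ (Ideal.subset_span (by simp)))

/-- `L` lists triples `(a, τ, q)`, `τ` of degree `a`, `q` of degree `u + v - a`, with
`d1 d0 = d0 d1 = ∑ τ q`.  The operators outside `I0` are nilpotent modulo the `τ` and `q`. -/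
theorem cone_main {I : Type*} [Fintype I] [DecidableEq I] (T : I → R) (e : I → G) (u v : G)
    (I0 : Finset I) (L : List (G × R × R))
    (V : Type w) [AddCommGroup V] [Module K V] [Module R V] [IsScalarTower K R V]
    (X0 X1 : G → Submodule K V) (d0 d1 : V →ₗ[R] V)
    (hs0 : Stable T e X0) (hs1 : Stable T e X1) (hg0 : FGen T e X0) (hg1 : FGen T e X1)
    (hf0 : FinDim X0) (hf1 : FinDim X1)
    (hd0 : ∀ g x, x ∈ X0 g → d0 x ∈ X1 (g + u)) (hd1 : ∀ g x, x ∈ X1 g → d1 x ∈ X0 (g + v))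
    (h10 : ∀ x, d1 (d0 x) = (L.map fun p => p.2.1 * p.2.2).sum • x)
    (h01 : ∀ x, d0 (d1 x) = (L.map fun p => p.2.1 * p.2.2).sum • x)
    (hL : ∀ p ∈ L, p.2.1 ∈ Gen K T e {((0 : G), (1 : R))} p.1 ∧
      p.2.2 ∈ Gen K T e {((0 : G), (1 : R))} (u + v - p.1))
    (hnil : ∀ i, i ∉ I0 → ∃ m : ℕ, T i ^ m ∈
      Gen K T e {x | ∃ p ∈ L, x = (p.1, p.2.1) ∨ x = (u + v - p.1, p.2.2)} (m • e i))
    (p0 p1 : AddMonoidAlgebra ℤ G)
    (hp0 : act (∏ i, (1 - mon (e i))) (hf X0) = emb p0)
    (hp1 : act (∏ i, (1 - mon (e i))) (hf X1) = emb p1) :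
    (L.map fun p => 1 - mon p.1).prod * (mon u * p0 - p1) ∈
      Ideal.span {∏ i ∈ I0ᶜ, (1 - mon (e i)), mon (u + v) - 1} := by
  exact cone_gen T e u v I0 L hL V X0 X1 d0 d1 hs0 hs1 hg0 hg1 hf0 hf1 hd0 hd1 h10 h01 ∅
    (fun _ h => h.elim) (by simpa only [Set.empty_union] using hnil) p0 p1 hp0 hp1

end Vale.Agent.P200
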