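import Vale.Agent.P200.Defs

/-! Specialising the two-variable Euler characteristic identity at roots of unity. -/

namespace Vale.Agent.P200

open Polynomial

/-- The monoid map `(d, j) ↦ ω ^ j * X ^ (d - j)`. -/
noncomputable def cyHom (ω : ℂ) (hω : ω ≠ 0) : Multiplicative (ℤ × ℤ) →* RatFunc ℂ where
  toFun g := RatFunc.C ω ^ g.toAdd.2 * RatFunc.X ^ (g.toAdd.1 - g.toAdd.2)
  map_one' := by simp
  map_mul' g h := by
    have h1 : (RatFunc.C ω : RatFunc ℂ) ≠ 0 := by simpa using hω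
    simp only [toAdd_mul, Prod.snd_add, Prod.fst_add]
    rw [zpow_add₀ h1, show g.toAdd.1 + h.toAdd.1 - (g.toAdd.2 + h.toAdd.2) =
      (g.toAdd.1 - g.toAdd.2) + (h.toAdd.1 - h.toAdd.2) by ring, zpow_add₀ RatFunc.X_ne_zero]
    ring

/-- The specialisation at `ω`. -/
noncomputable def cyPsi (ω : ℂ) (hω : ω ≠ 0) : AddMonoidAlgebra ℤ (ℤ × ℤ) →ₐ[ℤ] RatFunc ℂ :=
  AddMonoidAlgebra.lift ℤ (RatFunc ℂ) (ℤ × ℤ) (cyHom ω hω)

theorem cyPsi_single (ω : ℂ) (hω : ω ≠ 0) (d j c : ℤ) :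
    cyPsi ω hω (AddMonoidAlgebra.single (d, j) c) =
      (c : RatFunc ℂ) * (RatFunc.C ω ^ j * RatFunc.X ^ (d - j)) := by
  rw [cyPsi, AddMonoidAlgebra.lift_single, Algebra.smul_def, eq_intCast]
  rfl

theorem cyPsi_mon (ω : ℂ) (hω : ω ≠ 0) (d j : ℤ) :
    cyPsi ω hω (mon (d, j)) = RatFunc.C ω ^ j * RatFunc.X ^ (d - j) := by
  rw [mon, cyPsi_single]
  simp

theorem cy_zpow (d : ℤ) : ∃ m n : ℕ, (RatFunc.X : RatFunc ℂ) ^ m * RatFunc.X ^ d =
    RatFunc.X ^ n := by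
  refine ⟨d.natAbs, (d.natAbs + d).toNat, ?_⟩
  rw [← zpow_natCast, ← zpow_natCast, ← zpow_add₀ RatFunc.X_ne_zero,
    Int.toNat_of_nonneg (by omega)]

theorem cyPsi_poly (ω : ℂ) (hω : ω ≠ 0) (A : AddMonoidAlgebra ℤ (ℤ × ℤ)) :
    ∃ (m : ℕ) (Q : ℂ[X]), RatFunc.X ^ m * cyPsi ω hω A = algebraMap ℂ[X] (RatFunc ℂ) Q := by
  induction A using AddMonoidAlgebra.induction_linear with
  | zero => exact ⟨0, 0, by simp⟩
  | add p q hp hq =>
    obtain ⟨m, P, h1⟩ := hp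
    obtain ⟨n, Q, h2⟩ := hq
    refine ⟨m + n, X ^ n * P + X ^ m * Q, ?_⟩
    simp only [map_add, map_mul, map_pow, RatFunc.algebraMap_X, ← h1, ← h2]
    ring
  | single g c =>
    obtain ⟨d, j⟩ := g
    obtain ⟨m, n, h⟩ := cy_zpow (d - j)
    refine ⟨m, C ((c : ℂ) * ω ^ j) * X ^ n, ?_⟩
    rw [cyPsi_single]
    simp only [map_mul, map_pow, RatFunc.algebraMap_X, RatFunc.algebraMap_C, ← h, map_zpow₀,
      map_intCast]
    ring

theorem cy_int (p : AddMonoidAlgebra ℤ ℤ) : ∃ (m : ℕ) (P : ℤ[X]), P.eval 1 = total p ∧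
    ∀ (ω : ℂ) (hω : ω ≠ 0), RatFunc.X ^ m *
      cyPsi ω hω (AddMonoidAlgebra.mapDomain (fun d : ℤ => (d, (0 : ℤ))) p) =
        algebraMap ℂ[X] (RatFunc ℂ) (P.map (Int.castRingHom ℂ)) := by
  induction p using AddMonoidAlgebra.induction_linear with
  | zero => exact ⟨0, 0, by simp, fun ω hω => by simp⟩
  | add p q hp hq =>
    obtain ⟨m, P, e1, h1⟩ := hp
    obtain ⟨n, Q, e2, h2⟩ := hq
    refine ⟨m + n, X ^ n * P + X ^ m * Q, by simp [e1, e2], fun ω hω => ?_⟩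
    simp only [AddMonoidAlgebra.mapDomain_add, map_add, map_mul, map_pow, RatFunc.algebraMap_X,
      Polynomial.map_add, Polynomial.map_mul, Polynomial.map_pow, map_X, ← h1 ω hω, ← h2 ω hω]
    ring
  | single d c =>
    obtain ⟨m, n, h⟩ := cy_zpow d
    refine ⟨m, C c * X ^ n, by rw [total, AddMonoidAlgebra.lift_single]; simp, fun ω hω => ?_⟩
    rw [AddMonoidAlgebra.mapDomain_single, cyPsi_single]
    simp only [Polynomial.map_mul, Polynomial.map_pow, map_X, eq_intCast, map_mul, map_pow,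
      RatFunc.algebraMap_X, map_intCast, ← h, zpow_zero, sub_zero, one_mul,
      Polynomial.map_intCast]
    ring

theorem cyclo (a N k : ℕ) (ha : 2 ≤ a) (p : AddMonoidAlgebra ℤ ℤ)
    (h : (1 - mon ((a : ℤ), (0 : ℤ))) ^ k *
        (mon ((1 : ℤ), (1 : ℤ)) * AddMonoidAlgebra.mapDomain (fun d : ℤ => (d, (0 : ℤ))) p -
          AddMonoidAlgebra.mapDomain (fun d : ℤ => (d, (0 : ℤ))) p) ∈
      Ideal.span {(1 - mon ((a : ℤ), (0 : ℤ))) ^ k * (1 - mon ((0 : ℤ), (1 : ℤ))) ^ N,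
        mon ((a : ℤ), (a : ℤ)) - 1}) :
    (a : ℤ) ^ N ∣ total p := by
  classical
  obtain ⟨α, β, hαβ⟩ := Ideal.mem_span_pair.1 h
  obtain ⟨m₀, P, hP1, hP⟩ := cy_int p
  have hroot : ∀ ω : ℂ, ω ^ a = 1 → ω ≠ 1 → (X - C ω) ^ N ∣ P.map (Int.castRingHom ℂ) := by
    intro ω h1 h2
    have hω : ω ≠ 0 := by
      rintro rfl
      rw [zero_pow (by omega)] at h1
      exact zero_ne_one h1
    obtain ⟨m, Q, hQ⟩ := cyPsi_poly ω hω α
    have e := congrArg (cyPsi ω hω) hαβ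
    have hCa : (RatFunc.C ω : RatFunc ℂ) ^ a = 1 := by rw [← map_pow, h1, map_one]
    simp only [map_add, map_mul, map_pow, map_sub, map_one, cyPsi_mon, zpow_zero, sub_zero,
      one_mul, zpow_natCast, zpow_one, sub_self, mul_one, zero_sub, zpow_neg, hCa, mul_zero,
      add_zero] at e
    have hne : (1 - (RatFunc.X : RatFunc ℂ) ^ a) ^ k ≠ 0 := by
      refine pow_ne_zero _ fun h0 => ?_
      have h3 : algebraMap ℂ[X] (RatFunc ℂ) (1 - X ^ a) = 0 := by simpa using h0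
      have h4 := congrArg (Polynomial.eval 0)
        ((map_eq_zero_iff _ (IsFractionRing.injective ℂ[X] (RatFunc ℂ))).1 h3)
      have h5 : a ≠ 0 := by omega
      simp [h5] at h4
    set z := cyPsi ω hω (AddMonoidAlgebra.mapDomain (fun d : ℤ => (d, (0 : ℤ))) p) with hz
    have e2 : cyPsi ω hω α * (1 - RatFunc.C ω * RatFunc.X⁻¹) ^ N = (RatFunc.C ω - 1) * z := by
      apply mul_left_cancel₀ hne
      linear_combination e
    have e3 : (RatFunc.X - RatFunc.C ω : RatFunc ℂ) ^ N =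
        RatFunc.X ^ N * (1 - RatFunc.C ω * RatFunc.X⁻¹) ^ N := by
      rw [← mul_pow]
      congr 1
      field_simp [RatFunc.X_ne_zero]
    have e4 : (X - C ω) ^ N * (Q * X ^ m₀) =
        (C (ω - 1) * X ^ (m + N)) * P.map (Int.castRingHom ℂ) := by
      apply IsFractionRing.injective ℂ[X] (RatFunc ℂ)
      simp only [map_mul, map_pow, map_sub, RatFunc.algebraMap_X, RatFunc.algebraMap_C, map_one,
        ← hQ, ← hP ω hω, ← hz, e3]
      linear_combination (RatFunc.X ^ N * RatFunc.X ^ m * RatFunc.X ^ m₀) * e2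
    have hc1 : IsCoprime (X - C ω : ℂ[X]) X := by
      have := isCoprime_X_sub_C_of_isUnit_sub (R := ℂ) (a := ω) (b := 0)
        (by simpa using hω)
      simpa using this
    have hc2 : IsCoprime ((X - C ω : ℂ[X]) ^ N) (C (ω - 1) * X ^ (m + N)) := by
      refine IsCoprime.mul_right ?_ hc1.pow
      exact (isUnit_C.2 (IsUnit.mk0 _ (sub_ne_zero.2 h2))).isRelPrime_right.isCoprime
    exact hc2.dvd_of_dvd_mul_left ⟨_, e4.symm⟩
  have hpos : 0 < a := by omega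
  have hprod := X_pow_sub_one_eq_prod hpos (Complex.isPrimitiveRoot_exp a (by omega))
  have h1 : (1 : ℂ) ∈ nthRootsFinset a (1 : ℂ) := by
    rw [mem_nthRootsFinset hpos]
    simp
  rw [← Finset.mul_prod_erase _ _ h1, ← mul_geom_sum, map_one] at hprod
  have hgeom := mul_left_cancel₀ (by simpa using X_sub_C_ne_zero (1 : ℂ)) hprod
  have hdvd : (∑ i ∈ Finset.range a, (X : ℂ[X]) ^ i) ^ N ∣ P.map (Int.castRingHom ℂ) := by
    rw [hgeom, ← Finset.prod_pow]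
    refine Finset.prod_dvd_of_coprime (fun x _ y _ hxy => ?_) fun ω hω => ?_
    · exact (isCoprime_X_sub_C_of_isUnit_sub (IsUnit.mk0 _ (sub_ne_zero.2 hxy))).pow
    · obtain ⟨h2, h3⟩ := Finset.mem_erase.1 hω
      exact hroot ω ((mem_nthRootsFinset hpos _).1 h3) h2
  have hdvd2 : (∑ i ∈ Finset.range a, (X : ℤ[X]) ^ i) ^ N ∣ P := by
    rw [← Polynomial.map_dvd_map (Int.castRingHom ℂ) Int.cast_injective
      ((monic_geom_sum_X (by omega)).pow N)]
    simpa [Polynomial.map_pow, Polynomial.map_sum] using hdvd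
  have h5 := eval_dvd (x := (1 : ℤ)) hdvd2
  rw [hP1] at h5
  simpa [eval_finsetSum] using h5

end Vale.Agent.P200
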