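import Mathlib

/-! Basic definitions: graded families of subspaces, Hilbert functions, group ring action. -/

namespace Vale.Agent.P200

open Module

section Fam

variable {K : Type*} [Field K] {R : Type*} [CommRing R]
variable {G : Type*} [AddCommGroup G]
variable {V : Type*} [AddCommGroup V] [Module K V] [Module R V]

/-- `r` maps `U g` into `W (g + e)` for all `g`. -/
def Maps (r : R) (e : G) (U W : G → Submodule K V) : Prop :=
  ∀ g v, v ∈ U g → r • v ∈ W (g + e)

/-- The family `U` is stable under the operators `T i` of degrees `e i`. -/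
def Stable {I : Type*} (T : I → R) (e : I → G) (U : G → Submodule K V) : Prop :=
  ∀ i, Maps (T i) (e i) U U

/-- The least stable family containing the elements `p.2` in degrees `p.1`, for `p ∈ s`. -/
def Gen (K : Type*) [Field K] [Module K V] {I : Type*} (T : I → R) (e : I → G)
    (s : Set (G × V)) : G → Submodule K V :=
  sInf {W | Stable T e W ∧ ∀ p ∈ s, p.2 ∈ W p.1}

/-- The family `U` is contained in a finitely generated stable family with generators in `U`. -/
def FGen {I : Type*} (T : I → R) (e : I → G) (U : G → Submodule K V) : Prop :=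
  ∃ s : Set (G × V), s.Finite ∧ (∀ p ∈ s, p.2 ∈ U p.1) ∧ U ≤ Gen K T e s

/-- All members of the family are finite dimensional. -/
def FinDim (U : G → Submodule K V) : Prop := ∀ g, FiniteDimensional K (U g)

/-- Hilbert function of a family. -/
noncomputable def hf (U : G → Submodule K V) : G → ℤ := fun g => (finrank K (U g) : ℤ)

end Fam

section Act

variable {G : Type*} [AddCommGroup G]

/-- Shift of functions: `(shift a h) g = h (g - a)`. -/
def shift (a : G) : Module.End ℤ (G → ℤ) := LinearMap.funLeft ℤ ℤ (fun g => g - a)

@[simp] theorem shift_apply (a : G) (h : G → ℤ) (g : G) : shift a h g = h (g - a) := rfl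

/-- Shifts as a monoid homomorphism. -/
def shiftHom : Multiplicative G →* Module.End ℤ (G → ℤ) where
  toFun a := shift a.toAdd
  map_one' := by ext h g; simp
  map_mul' a b := by
    refine LinearMap.ext fun h => funext fun g => ?_
    simp [sub_sub, add_comm]

/-- The group ring acts on all integer functions on `G` by convolution. -/
noncomputable def act : AddMonoidAlgebra ℤ G →ₐ[ℤ] Module.End ℤ (G → ℤ) :=
  AddMonoidAlgebra.lift ℤ (Module.End ℤ (G → ℤ)) G shiftHom

/-- The monomial of degree `a` in the group ring. -/
noncomputable def mon (a : G) : AddMonoidAlgebra ℤ G := AddMonoidAlgebra.single a 1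

/-- An element of the group ring as a finitely supported function. -/
def emb (p : AddMonoidAlgebra ℤ G) : G → ℤ := fun g => p.coeff g

/-- Sum of the coefficients. -/
noncomputable def total : AddMonoidAlgebra ℤ G →ₐ[ℤ] ℤ :=
  AddMonoidAlgebra.lift ℤ ℤ G 1

@[simp] theorem act_mon (a : G) : act (mon a) = shift a := by
  simp [act, mon, shiftHom]

theorem mon_add (a b : G) : mon (a + b) = mon a * mon b := by
  simp [mon, AddMonoidAlgebra.single_mul_single]

@[simp] theorem mon_zero : mon (0 : G) = 1 := rfl

@[simp] theorem total_mon (a : G) : total (mon a) = 1 := by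
  simp [total, mon]

theorem emb_injective : Function.Injective (emb : AddMonoidAlgebra ℤ G → G → ℤ) := by
  intro p q h
  apply AddMonoidAlgebra.coeff_injective
  ext g
  exact congrFun h g

theorem emb_add (p q : AddMonoidAlgebra ℤ G) : emb (p + q) = emb p + emb q := by
  funext g; simp [emb]

theorem emb_sub (p q : AddMonoidAlgebra ℤ G) : emb (p - q) = emb p - emb q := by
  funext g; simp [emb]

@[simp] theorem emb_zero : emb (0 : AddMonoidAlgebra ℤ G) = 0 := by
  funext g; simp [emb]

theorem act_emb (p q : AddMonoidAlgebra ℤ G) : act p (emb q) = emb (p * q) := by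
  induction p using AddMonoidAlgebra.induction_linear with
  | zero => simp
  | add p p' hp hp' => rw [map_add, LinearMap.add_apply, hp, hp', add_mul, emb_add]
  | single a c =>
    funext g
    simp [act, shiftHom, emb, sub_eq_neg_add]

theorem exists_emb_of_finite (h : G → ℤ) (hh : (Function.support h).Finite) :
    ∃ p, h = emb p :=
  ⟨AddMonoidAlgebra.ofCoeff (Finsupp.ofSupportFinite h hh), rfl⟩

end Act

section Filt

/-- The filtration piece of degree `d` spanned over `K` by `t ^ β • g l`
with `a * |β| + dg l ≤ d`. -/
def filt (K : Type*) [Field K] {F : Type*} [Field F] {V : Type*} [AddCommGroup V]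
    [Module K V] [Module F V] {κ Λ : Type*} (t : κ → F) (a : ℕ) (g : Λ → V) (dg : Λ → ℕ)
    (d : ℤ) : Submodule K V :=
  Submodule.span K {x | ∃ (β : κ →₀ ℕ) (l : Λ), ((a * β.degree + dg l : ℕ) : ℤ) ≤ d ∧
    x = (β.prod fun k m => t k ^ m) • g l}

end Filt

end Vale.Agent.P200
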