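import Vale.Agent.P200.HS

/-! Auxiliary lemmas for the divisibility theorem. -/

namespace Vale.Agent.P200

open Module MvPolynomial TensorProduct

section One

variable {K : Type*} [Field K] {R : Type*} [CommRing R] [Algebra K R]
variable {G : Type*} [AddCommGroup G] {I : Type*} (T : I → R) (e : I → G)

theorem dv_one : (1 : R) ∈ Gen K T e {((0 : G), (1 : R))} 0 :=
  mem_Gen (K := K) T e (p := ((0 : G), (1 : R))) rfl

variable {T e}

theorem dv_mul {r r' : R} {a a' : G} (h : r ∈ Gen K T e {((0 : G), (1 : R))} a)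
    (h' : r' ∈ Gen K T e {((0 : G), (1 : R))} a') :
    r * r' ∈ Gen K T e {((0 : G), (1 : R))} (a + a') := by
  have := Maps.of_mem_Gen_one (Gen_stable (K := K) T e {((0 : G), (1 : R))}) h a' r' h'
  rwa [smul_eq_mul, add_comm] at this

variable (T e)

theorem dv_T (i : I) : T i ∈ Gen K T e {((0 : G), (1 : R))} (e i) := by
  have := Gen_stable (K := K) T e {((0 : G), (1 : R))} i 0 1 (dv_one T e)
  rwa [smul_eq_mul, mul_one, zero_add] at this

theorem dv_pow (i : I) (m : ℕ) : T i ^ m ∈ Gen K T e {((0 : G), (1 : R))} (m • e i) := by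
  induction m with
  | zero => simpa using dv_one T e
  | succ m ih =>
    rw [pow_succ, succ_nsmul]
    exact dv_mul ih (dv_T T e i)

theorem dv_prod {κ : Type*} (f : κ → I) (c : G) (hc : ∀ k, e (f k) = c) (β : κ →₀ ℕ) :
    (β.prod fun k m => T (f k) ^ m) ∈ Gen K T e {((0 : G), (1 : R))} (β.degree • c) := by
  induction β using Finsupp.induction_linear with
  | zero => simpa using dv_one T e
  | add β β' h h' =>
    rw [Finsupp.prod_add_index' (h := fun k m => T (f k) ^ m) (fun _ => pow_zero _)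
      (fun _ _ _ => pow_add _ _ _), map_add, add_nsmul]
    exact dv_mul h h'
  | single k m =>
    rw [Finsupp.prod_single_index (h := fun k m => T (f k) ^ m) (pow_zero _),
      Finsupp.degree_single, ← hc k]
    exact dv_pow T e (f k) m

end One

section Filt

variable {K : Type*} [Field K] {F : Type*} [Field F] [Algebra K F] {κ Λ : Type*}
  {V : Type*} [AddCommGroup V] [Module K V] [Module F V] [IsScalarTower K F V]
  (t : κ → F) (a : ℕ) (g : Λ → V) (dg : Λ → ℕ)

omit [Algebra K F] [IsScalarTower K F V] in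
theorem dv_filt_gen (β : κ →₀ ℕ) (l : Λ) {d : ℤ} (h : ((a * β.degree + dg l : ℕ) : ℤ) ≤ d) :
    (β.prod fun k m => t k ^ m) • g l ∈ filt K t a g dg d :=
  Submodule.subset_span ⟨β, l, h, rfl⟩

omit [Algebra K F] [IsScalarTower K F V] in
theorem dv_filt_mono {d d' : ℤ} (h : d ≤ d') : filt K t a g dg d ≤ filt K t a g dg d' := by
  refine Submodule.span_mono ?_
  rintro _ ⟨β, l, h1, rfl⟩
  exact ⟨β, l, h1.trans h, rfl⟩

omit [Algebra K F] [IsScalarTower K F V] in
theorem dv_filt_map {W : Type*} [AddCommGroup W] [Module K W] (f : V →ₗ[K] W)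
    (U : Submodule K W) (d : ℤ)
    (h : ∀ (β : κ →₀ ℕ) (l : Λ), ((a * β.degree + dg l : ℕ) : ℤ) ≤ d →
      f ((β.prod fun k m => t k ^ m) • g l) ∈ U) {v : V} (hv : v ∈ filt K t a g dg d) :
    f v ∈ U := by
  have : filt K t a g dg d ≤ U.comap f := by
    refine Submodule.span_le.2 ?_
    rintro _ ⟨β, l, h1, rfl⟩
    exact h β l h1
  exact this hv

theorem dv_filt_tpow (β : κ →₀ ℕ) {d : ℤ} {v : V} (hv : v ∈ filt K t a g dg d) :
    (β.prod fun k m => t k ^ m) • v ∈ filt K t a g dg (d + (a * β.degree : ℕ)) := by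
  refine dv_filt_map t a g dg (Algebra.lsmul K K V (β.prod fun k m => t k ^ m)) _ d
    (fun β' l h => ?_) hv
  rw [Algebra.lsmul_coe]
  beta_reduce
  rw [smul_smul, ← Finsupp.prod_add_index' (h := fun k m => t k ^ m) (fun _ => pow_zero _)
    (fun _ _ _ => pow_add _ _ _)]
  refine dv_filt_gen t a g dg _ l ?_
  rw [map_add]
  push_cast at h ⊢
  linarith

theorem dv_filt_t (k : κ) {d : ℤ} {v : V} (hv : v ∈ filt K t a g dg d) :
    t k • v ∈ filt K t a g dg (d + a) := by
  have := dv_filt_tpow t a g dg (Finsupp.single k 1) hv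
  rwa [Finsupp.prod_single_index (h := fun k m => t k ^ m) (pow_zero _), pow_one,
    Finsupp.degree_single, mul_one] at this

theorem dv_stage1 [Fintype κ] [Finite Λ] (hfd : FinDim (filt K t a g dg)) :
    ∃ p, act ((1 - mon 1) * (1 - mon (a : ℤ)) ^ Fintype.card κ) (hf (filt K t a g dg)) =
      emb p := by
  classical
  let T : Option κ → F := fun o => o.elim 1 t
  let e : Option κ → ℤ := fun o => o.elim 1 fun _ => a
  have hs : Stable T e (filt K t a g dg) := by
    rintro (_ | k) d v hv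
    · exact dv_filt_mono t a g dg (d := d) (by simp [e]) (by simpa [T] using hv)
    · exact dv_filt_t t a g dg k hv
  have hfg : FGen T e (filt K t a g dg) := by
    refine ⟨Set.range fun l => ((dg l : ℤ), g l), Set.finite_range _, ?_, fun d v hv => ?_⟩
    · rintro _ ⟨l, rfl⟩
      simpa using dv_filt_gen (K := K) t a g dg 0 l (d := dg l) (by simp)
    · refine dv_filt_map t a g dg LinearMap.id _ d (fun β l h => ?_) hv
      obtain ⟨n, hn⟩ := Int.eq_ofNat_of_zero_le (sub_nonneg.2 h)
      have h1 := Maps.of_mem_Gen_one (Gen_stable (K := K) T e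
        (Set.range fun l => ((dg l : ℤ), g l)))
        (dv_mul (dv_pow T e none n) (dv_prod T e some (a : ℤ) (fun _ => rfl) β)) (dg l) (g l)
        (mem_Gen T e (p := ((dg l : ℤ), g l)) ⟨l, rfl⟩)
      have h2 : (dg l : ℤ) + (n • e none + β.degree • (a : ℤ)) = d := by
        simp only [e, Option.elim_none, nsmul_eq_mul, mul_one]
        push_cast at hn
        linarith
      rw [h2] at h1
      simpa [T] using h1
  obtain ⟨p, hp⟩ := hilbertSerre T e _ hfg hfd Finset.univ _ ⊥ hs
    (fun i d v hv => by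
      rw [Pi.bot_apply, Submodule.mem_bot] at hv ⊢
      rw [hv, smul_zero]) bot_le le_rfl (fun i hi => absurd (Finset.mem_univ i) hi)
  refine ⟨p, ?_⟩
  have h0 : hf (⊥ : ℤ → Submodule K V) = 0 := by
    funext d
    simp [hf]
  rw [h0, sub_zero, Fintype.prod_option] at hp
  simpa [e] using hp

end Filt

section Count

/-- Extension by zero from the line `j = 0`. -/
def dvExt (h : ℤ → ℤ) : ℤ × ℤ → ℤ := fun g => if g.2 = 0 then h g.1 else 0

theorem dv_act_single {G : Type*} [AddCommGroup G] (a : G) (c : ℤ) (h : G → ℤ) (g : G) :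
    act (AddMonoidAlgebra.single a c) h g = c * h (g - a) := by
  simp [act, shiftHom]

theorem dv_act_ext (A : AddMonoidAlgebra ℤ ℤ) (h : ℤ → ℤ) :
    act (AddMonoidAlgebra.mapDomain (fun d : ℤ => (d, (0 : ℤ))) A) (dvExt h) =
      dvExt (act A h) := by
  induction A using AddMonoidAlgebra.induction_linear with
  | zero =>
    funext g
    simp [dvExt]
  | add p q hp hq =>
    rw [AddMonoidAlgebra.mapDomain_add, map_add, LinearMap.add_apply, hp, hq, map_add,
      LinearMap.add_apply]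
    funext g
    simp only [dvExt, Pi.add_apply]
    split_ifs <;> simp
  | single d c =>
    funext g
    rw [AddMonoidAlgebra.mapDomain_single, dv_act_single]
    simp only [dvExt, dv_act_single, Prod.snd_sub, sub_zero, Prod.fst_sub]
    split_ifs <;> simp

theorem dv_emb_ext (p : AddMonoidAlgebra ℤ ℤ) :
    emb (AddMonoidAlgebra.mapDomain (fun d : ℤ => (d, (0 : ℤ))) p) = dvExt (emb p) := by
  have h1 : emb (1 : AddMonoidAlgebra ℤ (ℤ × ℤ)) = dvExt (emb 1) := by
    funext g
    obtain ⟨d, j⟩ := g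
    simp only [emb, dvExt, AddMonoidAlgebra.one_def, AddMonoidAlgebra.coeff_single,
      Finsupp.single_apply, Prod.ext_iff, Prod.fst_zero, Prod.snd_zero]
    by_cases h1 : j = 0
    · simp [h1]
    · simp [h1, Ne.symm h1]
  rw [← mul_one (AddMonoidAlgebra.mapDomain _ p), ← act_emb, h1, dv_act_ext, act_emb, mul_one]

/-- The number of monomials of degree `j` in `N` variables. -/
def dvC (N : ℕ) (j : ℤ) : ℤ := if 0 ≤ j then (N.multichoose j.toNat : ℤ) else 0

theorem dvC_succ (N : ℕ) (j : ℤ) : dvC (N + 1) j - dvC (N + 1) (j - 1) = dvC N j := by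
  rcases lt_trichotomy j 0 with h | h | h
  · simp [dvC, not_le.2 h, show ¬ (1 ≤ j) by omega]
  · subst h
    simp [dvC]
  · obtain ⟨k, rfl⟩ : ∃ k : ℕ, j = (k : ℤ) + 1 := ⟨(j - 1).toNat, by omega⟩
    have h1 : ((k : ℤ) + 1).toNat = k + 1 := by omega
    simp only [dvC, h.le, if_true, add_sub_cancel_right, Int.natCast_nonneg, Int.toNat_natCast, h1,
      Nat.multichoose_succ_succ]
    push_cast
    ring

theorem dv_act_C (N : ℕ) (h : ℤ → ℤ) :
    act ((1 - mon ((0 : ℤ), (1 : ℤ))) ^ N) (fun g => dvC N g.2 * h g.1) = dvExt h := by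
  induction N with
  | zero =>
    funext g
    obtain ⟨d, j⟩ := g
    simp only [pow_zero, map_one, Module.End.one_apply, dvExt, dvC]
    rcases lt_trichotomy j 0 with h | h | h
    · simp [not_le.2 h, h.ne]
    · simp [h]
    · obtain ⟨k, rfl⟩ : ∃ k : ℕ, j = (k : ℤ) + 1 := ⟨(j - 1).toNat, by omega⟩
      have h1 : ((k : ℤ) + 1).toNat = k + 1 := by omega
      simp [h1, h.ne']
  | succ N ih =>
    rw [pow_succ, map_mul, Module.End.mul_apply, ← ih]
    congr 1
    funext g
    simp only [map_sub, map_one, act_mon, LinearMap.sub_apply, Module.End.one_apply, Pi.sub_apply,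
      shift_apply, Prod.snd_sub, Prod.fst_sub, sub_zero]
    rw [← sub_mul, dvC_succ]

theorem dv_act_all (a N k : ℕ) (h : ℤ → ℤ) (p : AddMonoidAlgebra ℤ ℤ)
    (hp : act ((1 - mon 1) * (1 - mon (a : ℤ)) ^ k) h = emb p) :
    act ((1 - mon ((1 : ℤ), (0 : ℤ))) * (1 - mon ((a : ℤ), (0 : ℤ))) ^ k *
      (1 - mon ((0 : ℤ), (1 : ℤ))) ^ N) (fun g => dvC N g.2 * h g.1) =
      emb (AddMonoidAlgebra.mapDomain (fun d : ℤ => (d, (0 : ℤ))) p) := by
  have h1 : (1 - mon ((1 : ℤ), (0 : ℤ))) * (1 - mon ((a : ℤ), (0 : ℤ))) ^ k =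
      AddMonoidAlgebra.mapDomain (fun d : ℤ => (d, (0 : ℤ)))
        ((1 - mon 1) * (1 - mon (a : ℤ)) ^ k) := by
    have h2 : ∀ A : AddMonoidAlgebra ℤ ℤ, AddMonoidAlgebra.mapDomain (fun d : ℤ => (d, (0 : ℤ))) A
        = AddMonoidAlgebra.mapDomainRingHom ℤ (AddMonoidHom.inl ℤ ℤ) A := fun _ => rfl
    rw [h2, map_mul, map_pow, map_sub, map_sub, map_one, ← h2, ← h2, mon, mon, mon, mon,
      AddMonoidAlgebra.mapDomain_single, AddMonoidAlgebra.mapDomain_single]
  rw [map_mul, Module.End.mul_apply, dv_act_C, h1, dv_act_ext, hp, dv_emb_ext]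

end Count

section Homog

variable {ι : Type*} {K : Type*} [Field K]

theorem dv_hc_mul (n a : ℕ) (r q : MvPolynomial ι K) (hq : q.IsHomogeneous a) :
    homogeneousComponent (n + a) (r * q) = homogeneousComponent n r * q := by
  induction r using MvPolynomial.induction_on' with
  | monomial d c =>
    rw [homogeneousComponent_of_mem ((isHomogeneous_monomial c rfl).mul hq),
      homogeneousComponent_of_mem (isHomogeneous_monomial c rfl)]
    by_cases h : n = d.degree
    · simp [h]
    · simp [h]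
  | add p p' hp hp' => simp [add_mul, hp, hp']

theorem dv_nil {κ : Type*} [Fintype κ] (a : ℕ) (q : κ → MvPolynomial ι K)
    (hq : ∀ k, (q k).IsHomogeneous a) (j : ι)
    (hj : (X j : MvPolynomial ι K) ∈ (Ideal.span (Set.range q)).radical) :
    ∃ (n : ℕ) (r : κ → MvPolynomial ι K), (∀ k, (r k).IsHomogeneous n) ∧
      (X j : MvPolynomial ι K) ^ (n + a) = ∑ k, r k * q k := by
  obtain ⟨n, hn⟩ := hj
  obtain ⟨c, hc⟩ := Ideal.mem_span_range_iff_exists_fun.1 hn
  refine ⟨n, fun k => homogeneousComponent n (X j ^ a * c k),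
    fun k => homogeneousComponent_isHomogeneous _ _, ?_⟩
  have h1 : (X j : MvPolynomial ι K) ^ (n + a) = ∑ k, (X j ^ a * c k) * q k := by
    rw [pow_add, ← hc, Finset.sum_mul]
    exact Finset.sum_congr rfl fun k _ => by ring
  have h2 := homogeneousComponent_eq_self (isHomogeneous_X_pow (R := K) j (n + a))
  rw [← h2]
  conv_lhs => rw [h1, map_sum]
  exact Finset.sum_congr rfl fun k _ => dv_hc_mul n a _ _ (hq k)

variable {F : Type*} [Field F] [Algebra K F] {G : Type*} [AddCommGroup G] {I : Type*}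

theorem dv_monomial (T : I → MvPolynomial ι F) (e : I → G) (f : ι → I) (c : G)
    (hT : ∀ j, T (f j) = X j) (hc : ∀ j, e (f j) = c) (α : ι →₀ ℕ) :
    (monomial α 1 : MvPolynomial ι F) ∈ Gen K T e {((0 : G), (1 : MvPolynomial ι F))}
      (α.degree • c) := by
  have := dv_prod (K := K) T e f c hc α
  simp only [hT] at this
  rwa [monomial_eq, C_1, one_mul]

theorem dv_homog (T : I → MvPolynomial ι F) (e : I → G) (f : ι → I) (c : G)
    (hT : ∀ j, T (f j) = X j) (hc : ∀ j, e (f j) = c) {n : ℕ} {r : MvPolynomial ι K}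
    (hr : r.IsHomogeneous n) :
    map (algebraMap K F) r ∈ Gen K T e {((0 : G), (1 : MvPolynomial ι F))} (n • c) := by
  rw [r.as_sum, map_sum]
  refine Submodule.sum_mem _ fun α hα => ?_
  have h1 : α.degree = n := by
    by_contra h
    exact mem_support_iff.1 hα (hr.coeff_eq_zero h)
  have h2 : map (algebraMap K F) (monomial α (coeff α r)) =
      coeff α r • (monomial α 1 : MvPolynomial ι F) := by
    rw [map_monomial, smul_monomial, Algebra.algebraMap_eq_smul_one]
  rw [h2, ← h1]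
  exact Submodule.smul_mem _ _ (dv_monomial T e f c hT hc α)

end Homog

section Big

variable {K : Type*} [Field K] {F : Type*} [Field F] [Algebra K F] {ι : Type*}
  {V : Type*} [AddCommGroup V] [Module K V] [Module F V] [IsScalarTower K F V]

/-- The bigraded pieces of `F[X] ⊗ V`. -/
noncomputable def dvX (ι : Type*) (F : Type*) [Field F] [Algebra K F] [Module F V] (M : ℤ → Submodule K V)
    (g : ℤ × ℤ) : Submodule K (MvPolynomial ι F ⊗[F] V) :=
  Submodule.span K {x | ∃ (α : ι →₀ ℕ) (v : V), (α.degree : ℤ) = g.2 ∧ v ∈ M g.1 ∧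
    x = (monomial α (1 : F)) ⊗ₜ[F] v}

omit [IsScalarTower K F V] in
theorem dvX_gen {M : ℤ → Submodule K V} {g : ℤ × ℤ} {α : ι →₀ ℕ} {v : V}
    (h : (α.degree : ℤ) = g.2) (hv : v ∈ M g.1) : (monomial α (1 : F)) ⊗ₜ[F] v ∈ dvX ι F M g :=
  Submodule.subset_span ⟨α, v, h, hv, rfl⟩

omit [IsScalarTower K F V] in
theorem dvX_map {M : ℤ → Submodule K V} {g : ℤ × ℤ}
    (f : MvPolynomial ι F ⊗[F] V →ₗ[MvPolynomial ι F] MvPolynomial ι F ⊗[F] V)
    (U : Submodule K (MvPolynomial ι F ⊗[F] V))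
    (h : ∀ (α : ι →₀ ℕ) (v : V), (α.degree : ℤ) = g.2 → v ∈ M g.1 →
      f ((monomial α (1 : F)) ⊗ₜ[F] v) ∈ U) {x : MvPolynomial ι F ⊗[F] V}
    (hx : x ∈ dvX ι F M g) : f x ∈ U := by
  have : dvX ι F M g ≤ U.comap (f.restrictScalars K) := by
    refine Submodule.span_le.2 ?_
    rintro _ ⟨α, v, h1, h2, rfl⟩
    exact h α v h1 h2
  exact this hx

/-- `v ↦ p ⊗ v` as a `K`-linear map. -/
noncomputable def dvMk (K : Type*) [Field K] [Algebra K F] [Module K V] [IsScalarTower K F V]
    (p : MvPolynomial ι F) : V →ₗ[K] MvPolynomial ι F ⊗[F] V where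
  toFun v := p ⊗ₜ[F] v
  map_add' := tmul_add p
  map_smul' c v := by
    rw [RingHom.id_apply, ← algebraMap_smul F c v, tmul_smul, algebraMap_smul]

/-- The coefficient of a monomial. -/
noncomputable def dvCoef (α : ι →₀ ℕ) : MvPolynomial ι F ⊗[F] V →ₗ[F] V :=
  TensorProduct.lift ((LinearMap.lsmul F V).comp (lcoeff F α))

theorem dvX_finrank [Fintype ι] (M : ℤ → Submodule K V) (hM : FinDim M) (g : ℤ × ℤ) :
    FiniteDimensional K (dvX ι F M g) ∧
      (finrank K (dvX ι F M g) : ℤ) = dvC (Fintype.card ι) g.2 * finrank K (M g.1) := by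
  classical
  have := hM g.1
  let S : Finset (ι →₀ ℕ) :=
    if 0 ≤ g.2 then Finset.finsuppAntidiag Finset.univ g.2.toNat else ∅
  have hS : ∀ α : ι →₀ ℕ, α ∈ S ↔ (α.degree : ℤ) = g.2 := by
    intro α
    simp only [S]
    split_ifs with h
    · rw [Finset.mem_finsuppAntidiag, ← Finsupp.degree_eq_sum]
      simp only [Finset.subset_univ, and_true]
      omega
    · simp only [Finset.notMem_empty, false_iff]
      omega
  have hcard : (S.card : ℤ) = dvC (Fintype.card ι) g.2 := by
    simp only [S, dvC]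
    split_ifs with h
    · rw [Finset.card_finsuppAntidiag_nat_eq_multichoose, Finset.card_univ]
    · simp
  let Φ : (S → M g.1) →ₗ[K] MvPolynomial ι F ⊗[F] V :=
    ∑ α : S, (dvMk K (monomial α.1 (1 : F))).comp ((M g.1).subtype.comp (LinearMap.proj α))
  have hΦ : ∀ f, Φ f = ∑ α : S, (monomial α.1 (1 : F)) ⊗ₜ[F] (f α : V) := by
    intro f
    simp only [Φ, LinearMap.sum_apply]
    rfl
  have hinj : Function.Injective Φ := by
    rw [injective_iff_map_eq_zero]
    intro f hf0
    funext β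
    have h1 := congrArg (dvCoef β.1) hf0
    rw [hΦ, map_sum, map_zero, Finset.sum_eq_single β] at h1
    · simpa [dvCoef] using h1
    · intro α _ hne
      have : α.1 ≠ β.1 := fun h => hne (Subtype.ext h)
      simp [dvCoef, coeff_monomial, this]
    · simp
  have hrange : dvX ι F M g = LinearMap.range Φ := by
    apply le_antisymm
    · refine Submodule.span_le.2 ?_
      rintro _ ⟨α, v, h1, h2, rfl⟩
      refine ⟨Pi.single ⟨α, (hS α).2 h1⟩ ⟨v, h2⟩, ?_⟩
      rw [hΦ, Finset.sum_eq_single ⟨α, (hS α).2 h1⟩]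
      · simp
      · intro β _ hne
        simp [Pi.single_eq_of_ne hne]
      · simp
    · rintro _ ⟨f, rfl⟩
      rw [hΦ]
      exact Submodule.sum_mem _ fun α _ => dvX_gen ((hS α.1).1 α.2) (f α).2
  rw [hrange]
  refine ⟨inferInstance, ?_⟩
  rw [LinearMap.finrank_range_of_inj hinj, Module.finrank_pi_fintype, Finset.sum_const,
    Finset.card_univ, Fintype.card_coe, smul_eq_mul, ← hcard]
  push_cast
  ring

end Big

end Vale.Agent.P200
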