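import Vale.Agent.P200.Defs

/-! The numerator of the Hilbert series of a good filtration computes the rank. -/

namespace Vale.Agent.P200

open Module MvPolynomial

theorem total_eq_sum (p : AddMonoidAlgebra ℤ ℤ) : total p = ∑ x ∈ p.coeff.support, p.coeff x := by
  simp [total, AddMonoidAlgebra.lift_apply, Finsupp.sum]

theorem act_mul_apply (p q : AddMonoidAlgebra ℤ ℤ) (h : ℤ → ℤ) :
    act (p * q) h = act p (act q h) := by
  rw [map_mul, Module.End.mul_apply]

theorem act_one_sub_mon_apply (a : ℤ) (h : ℤ → ℤ) (d : ℤ) :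
    act (1 - mon a) h d = h d - h (d - a) := by
  simp

theorem eventually_eq_total (h : ℤ → ℤ) (hb : ∃ d0, ∀ d < d0, h d = 0)
    (p : AddMonoidAlgebra ℤ ℤ) (hp : act (1 - mon 1) h = emb p) :
    ∃ D, ∀ d ≥ D, h d = total p := by
  classical
  obtain ⟨d0, hd0⟩ := hb
  have hstep : ∀ d, h d - h (d - 1) = p.coeff d := fun d => by
    rw [← act_one_sub_mon_apply, hp]
    rfl
  have hcum : ∀ n : ℕ, h (d0 - 1 + n) = ∑ x ∈ p.coeff.support with x ≤ d0 - 1 + n, p.coeff x := by
    intro n
    induction n with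
    | zero =>
      rw [hd0 _ (by omega)]
      refine (Finset.sum_eq_zero fun x hx => ?_).symm
      have := (Finset.mem_filter.1 hx).2
      rw [← hstep, hd0 _ (by omega), hd0 _ (by omega), sub_zero]
    | succ n ih =>
      have h1 := hstep (d0 - 1 + (n + 1 : ℕ))
      have h2 : d0 - 1 + (n + 1 : ℕ) - 1 = d0 - 1 + n := by push_cast; ring
      rw [h2, ih] at h1
      rw [Finset.sum_filter] at h1 ⊢
      have h3 : p.coeff (d0 - 1 + (n + 1 : ℕ)) =
          ∑ x ∈ p.coeff.support, if x = d0 - 1 + (n + 1 : ℕ) then p.coeff x else 0 := by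
        rw [Finset.sum_ite_eq']
        split_ifs with hx
        · rfl
        · exact Finsupp.notMem_support_iff.1 hx
      rw [sub_eq_iff_eq_add, h3, ← Finset.sum_add_distrib] at h1
      rw [h1]
      refine Finset.sum_congr rfl fun x _ => ?_
      split_ifs <;> omega
  obtain ⟨B, hB⟩ := p.coeff.support.bddAbove
  refine ⟨max B d0, fun d hd => ?_⟩
  have h1 : d0 ≤ d := le_trans (le_max_right _ _) hd
  have h2 : B ≤ d := le_trans (le_max_left _ _) hd
  have h3 : d = d0 - 1 + ((d - d0 + 1).toNat : ℕ) := by omega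
  rw [total_eq_sum, h3, hcum, ← h3]
  refine Finset.sum_congr (Finset.filter_true_of_mem fun x hx => ?_) fun _ _ => rfl
  exact le_trans (hB hx) h2

theorem eventually_neg (m : ℕ) (p : AddMonoidAlgebra ℤ ℤ) (hneg : total p < 0) :
    ∀ h : ℤ → ℤ, (∃ d0, ∀ d < d0, h d = 0) → act ((1 - mon 1) ^ (m + 1)) h = emb p →
      ∃ D, ∀ d ≥ D, h d ≤ -1 := by
  induction m with
  | zero =>
    intro h hb hp
    obtain ⟨D, hD⟩ := eventually_eq_total h hb p (by simpa using hp)
    exact ⟨D, fun d hd => by rw [hD d hd]; omega⟩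
  | succ m ih =>
    intro h hb hp
    rw [pow_succ, act_mul_apply] at hp
    obtain ⟨d0, hd0⟩ := hb
    obtain ⟨D, hD⟩ := ih _ ⟨d0, fun d hd => by
      rw [act_one_sub_mon_apply, hd0 d hd, hd0 _ (by omega), sub_zero]⟩ hp
    have h1 : ∀ n : ℕ, h (D - 1 + n) ≤ h (D - 1) - n := by
      intro n
      induction n with
      | zero => simp
      | succ n ihn =>
        have h2 := hD (D - 1 + (n + 1 : ℕ)) (by omega)
        rw [act_one_sub_mon_apply] at h2
        have h3 : D - 1 + (n + 1 : ℕ) - 1 = D - 1 + n := by push_cast; ring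
        rw [h3] at h2
        omega
    refine ⟨D + |h (D - 1)|, fun d hd => ?_⟩
    have h2 := le_abs_self (h (D - 1))
    have h3 := abs_nonneg (h (D - 1))
    have h4 : d = D - 1 + ((d - D + 1).toNat : ℕ) := by omega
    have h5 := h1 (d - D + 1).toNat
    rw [← h4] at h5
    omega

/-- The geometric sum `1 + s + ... + s ^ (a - 1)`. -/
noncomputable def geo (a : ℕ) : AddMonoidAlgebra ℤ ℤ := ∑ j ∈ Finset.range a, mon (j : ℤ)

theorem geo_mul (a : ℕ) : (1 - mon 1) * geo a = 1 - mon (a : ℤ) := by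
  induction a with
  | zero => simp [geo]
  | succ a ih =>
    rw [geo, Finset.sum_range_succ, mul_add, ← geo, ih]
    push_cast
    rw [mon_add]
    ring

theorem total_geo (a : ℕ) : total (geo a) = a := by
  simp [geo]

theorem act_geo_apply (a : ℕ) (h : ℤ → ℤ) (d : ℤ) :
    act (geo a) h d = ∑ j ∈ Finset.range a, h (d - j) := by
  simp [geo, LinearMap.sum_apply, Finset.sum_apply]

/-- A nonnegative function with support bounded below whose `m`-th difference with step `a` is
finitely supported has numerator with nonnegative total. -/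
theorem total_nonneg (a m : ℕ) (ha : 0 < a) (h : ℤ → ℤ) (h0 : ∀ d, 0 ≤ h d)
    (hb : ∃ d0, ∀ d < d0, h d = 0) (p : AddMonoidAlgebra ℤ ℤ)
    (hp : act ((1 - mon (a : ℤ)) ^ m) h = emb p) : 0 ≤ total p := by
  have _ := ha
  obtain ⟨d0, hd0⟩ := hb
  have key : ∀ k : ℕ, (∀ d, 0 ≤ act (geo a ^ k) h d) ∧ ∀ d < d0, act (geo a ^ k) h d = 0 := by
    intro k
    induction k with
    | zero => simpa using ⟨h0, hd0⟩
    | succ k ih =>
      simp only [pow_succ', act_mul_apply, act_geo_apply]
      exact ⟨fun d => Finset.sum_nonneg fun j _ => ih.1 _,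
        fun d hd => Finset.sum_eq_zero fun j _ => ih.2 _ (by omega)⟩
  rw [← geo_mul, mul_pow, act_mul_apply] at hp
  cases m with
  | zero =>
    rw [total_eq_sum]
    refine Finset.sum_nonneg fun x _ => ?_
    have h1 : h = emb p := by simpa using hp
    have := h0 x
    rw [h1] at this
    exact this
  | succ m =>
    by_contra hneg
    obtain ⟨D, hD⟩ := eventually_neg m p (not_le.1 hneg) _ ⟨d0, (key (m + 1)).2⟩ hp
    have h1 := hD D le_rfl
    have h2 := (key (m + 1)).1 D
    omega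

/-- Number of monomials of weighted degree exactly `d`. -/
def mu (a n : ℕ) (d : ℤ) : ℤ :=
  if 0 ≤ d ∧ (a : ℤ) ∣ d then (n.multichoose (d / a).toNat : ℤ) else 0

theorem mu_mul (a n : ℕ) (ha : 0 < a) (j : ℕ) : mu a n (a * j) = n.multichoose j := by
  have h1 : (a : ℤ) ≠ 0 := by omega
  rw [mu, if_pos ⟨by positivity, dvd_mul_right _ _⟩, Int.mul_ediv_cancel_left _ h1]
  simp

theorem mu_eq_zero (a n : ℕ) (d : ℤ) (hd : ¬ ∃ j : ℕ, d = a * j) : mu a n d = 0 := by
  rw [mu, if_neg]
  rintro ⟨h0, c, rfl⟩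
  rcases Nat.eq_zero_or_pos a with rfl | ha
  · exact hd ⟨0, by simp⟩
  · have hc : 0 ≤ c := by
      by_contra hc
      have : (a : ℤ) * c < 0 := mul_neg_of_pos_of_neg (by omega) (by omega)
      omega
    exact hd ⟨c.toNat, by rw [Int.toNat_of_nonneg hc]⟩

theorem act_mu_succ (a n : ℕ) (ha : 0 < a) : act (1 - mon (a : ℤ)) (mu a (n + 1)) = mu a n := by
  funext d
  rw [act_one_sub_mon_apply]
  by_cases hd : ∃ j : ℕ, d = a * j
  · obtain ⟨j, rfl⟩ := hd
    rw [mu_mul a _ ha, mu_mul a _ ha]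
    cases j with
    | zero =>
      rw [mu_eq_zero]
      · simp
      · rintro ⟨j, hj⟩
        have : (0 : ℤ) ≤ a * j := by positivity
        simp only [Nat.cast_zero, mul_zero] at hj
        omega
    | succ j =>
      have : (a : ℤ) * ((j + 1 : ℕ) : ℤ) - a = a * j := by push_cast; ring
      rw [this, mu_mul a _ ha, Nat.multichoose_succ_succ]
      push_cast
      ring
  · rw [mu_eq_zero a _ d hd, mu_eq_zero a _ d hd, mu_eq_zero, sub_zero]
    rintro ⟨j, hj⟩
    exact hd ⟨j + 1, by push_cast; linarith⟩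

theorem mu_zero (a : ℕ) (ha : 0 < a) : mu a 0 = emb 1 := by
  funext d
  have h1 : emb (1 : AddMonoidAlgebra ℤ ℤ) d = if d = 0 then 1 else 0 := by
    rw [emb, AddMonoidAlgebra.one_def, AddMonoidAlgebra.coeff_single, Finsupp.single_apply]
    simp only [eq_comm]
  rw [h1]
  by_cases hd : ∃ j : ℕ, d = a * j
  · obtain ⟨j, rfl⟩ := hd
    rw [mu_mul a _ ha]
    cases j with
    | zero => simp
    | succ j =>
      rw [if_neg (by positivity)]
      simp
  · rw [mu_eq_zero a _ d hd, if_neg]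
    rintro rfl
    exact hd ⟨0, by simp⟩

theorem act_mu (a n : ℕ) (ha : 0 < a) : act ((1 - mon (a : ℤ)) ^ n) (mu a n) = emb 1 := by
  induction n with
  | zero => simpa using mu_zero a ha
  | succ n ih => rw [pow_succ, act_mul_apply, act_mu_succ a n ha, ih]

theorem finite_wdeg {κ : Type*} [Finite κ] (a : ℕ) (ha : 0 < a) (d : ℤ) :
    {β : κ →₀ ℕ | ((a * β.degree : ℕ) : ℤ) ≤ d}.Finite := by
  refine (Finsupp.finite_of_degree_le (σ := κ) d.toNat).subset fun β hβ => ?_
  have h1 : ((a * β.degree : ℕ) : ℤ) ≤ d := hβ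
  have h2 : β.degree ≤ a * β.degree := Nat.le_mul_of_pos_left _ ha
  change β.degree ≤ d.toNat
  omega

/-- Number of monomials of weighted degree at most `d`. -/
noncomputable def piF (κ : Type*) (a : ℕ) (d : ℤ) : ℤ :=
  ({β : κ →₀ ℕ | ((a * β.degree : ℕ) : ℤ) ≤ d}.ncard : ℤ)

theorem piF_neg (κ : Type*) (a : ℕ) (d : ℤ) (hd : d < 0) : piF κ a d = 0 := by
  have : {β : κ →₀ ℕ | ((a * β.degree : ℕ) : ℤ) ≤ d} = ∅ := by
    ext β
    simp only [Set.mem_ofPred_eq, Set.mem_empty_iff_false, iff_false]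
    omega
  rw [piF, this]
  simp

theorem act_piF (κ : Type*) [Fintype κ] (a : ℕ) (ha : 0 < a) :
    act (1 - mon 1) (piF κ a) = mu a (Fintype.card κ) := by
  classical
  funext d
  rw [act_one_sub_mon_apply]
  have h1 : {β : κ →₀ ℕ | ((a * β.degree : ℕ) : ℤ) ≤ d} =
      {β : κ →₀ ℕ | ((a * β.degree : ℕ) : ℤ) ≤ d - 1} ∪
        {β : κ →₀ ℕ | ((a * β.degree : ℕ) : ℤ) = d} := by
    ext β
    simp only [Set.mem_ofPred_eq, Set.mem_union]
    omega
  have h2 : {β : κ →₀ ℕ | ((a * β.degree : ℕ) : ℤ) = d}.Finite :=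
    (finite_wdeg a ha d).subset fun β hβ => le_of_eq hβ
  have h3 : Disjoint {β : κ →₀ ℕ | ((a * β.degree : ℕ) : ℤ) ≤ d - 1}
      {β : κ →₀ ℕ | ((a * β.degree : ℕ) : ℤ) = d} := by
    rw [Set.disjoint_left]
    intro β hβ hβ'
    simp only [Set.mem_ofPred_eq] at hβ hβ'
    omega
  rw [piF, piF, h1, Set.ncard_union_eq h3 (finite_wdeg a ha _) h2]
  push_cast
  rw [add_sub_cancel_left]
  by_cases hd : ∃ j : ℕ, d = a * j
  · obtain ⟨j, rfl⟩ := hd
    rw [mu_mul a _ ha, ← Finset.card_univ, ← Finset.card_finsuppAntidiag_nat_eq_multichoose,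
      ← Set.ncard_coe_finset]
    congr 2
    ext β
    have h4 : (a : ℤ) ≠ 0 := by omega
    simp only [Set.mem_ofPred_eq, Finset.mem_coe, Finset.mem_finsuppAntidiag, Finset.subset_univ,
      and_true, mul_right_inj' h4, Nat.cast_inj, Finsupp.degree_eq_sum]
  · rw [mu_eq_zero a _ d hd]
    have : {β : κ →₀ ℕ | (a : ℤ) * (β.degree : ℕ) = d} = ∅ := by
      ext β
      simp only [Set.mem_ofPred_eq, Set.mem_empty_iff_false, iff_false]
      exact fun h => hd ⟨_, h.symm⟩
    rw [this]
    simp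

variable {K : Type*} [Field K] {F : Type*} [Field F] [Algebra K F] {κ Λ : Type*}
  [Fintype κ] [Finite Λ] [Algebra (MvPolynomial κ K) F] [IsFractionRing (MvPolynomial κ K) F]
  [IsScalarTower K (MvPolynomial κ K) F]
  {V : Type*} [AddCommGroup V] [Module K V] [Module F V] [IsScalarTower K F V]

omit [Algebra K F] [Algebra (MvPolynomial κ K) F] [IsFractionRing (MvPolynomial κ K) F]
  [IsScalarTower K (MvPolynomial κ K) F] [IsScalarTower K F V] in
theorem filt_finDim (t : κ → F) (a : ℕ) (ha : 0 < a) (g : Λ → V) (dg : Λ → ℕ) :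
    FinDim (filt K t a g dg) := by
  intro d
  refine FiniteDimensional.span_of_finite K ?_
  refine (((finite_wdeg (κ := κ) a ha d).prod (Set.finite_univ (α := Λ))).image
    (fun x : (κ →₀ ℕ) × Λ => (x.1.prod fun k m => t k ^ m) • g x.2)).subset ?_
  rintro _ ⟨β, l, hβ, rfl⟩
  refine ⟨(β, l), ⟨?_, Set.mem_univ _⟩, rfl⟩
  change ((a * β.degree : ℕ) : ℤ) ≤ d
  omega

omit [Algebra K F] [Fintype κ] [IsFractionRing (MvPolynomial κ K) F]
  [IsScalarTower K (MvPolynomial κ K) F] in
theorem prod_pow_eq (β : κ →₀ ℕ) :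
    (β.prod fun k m => algebraMap (MvPolynomial κ K) F (X k) ^ m) =
      algebraMap (MvPolynomial κ K) F (monomial β 1) := by
  rw [monomial_eq, C_1, one_mul, map_finsuppProd]
  simp only [map_pow]

theorem finrank_filt_indep {ι : Type*} [Fintype ι] (a : ℕ) (ha : 0 < a) (v : ι → V)
    (hv : LinearIndependent F v) (d : ℤ) :
    hf (filt K (fun k : κ => algebraMap (MvPolynomial κ K) F (X k)) a v (fun _ => 0)) d =
      Fintype.card ι * piF κ a d := by
  classical
  have hb : LinearIndependent K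
      (fun β : κ →₀ ℕ => algebraMap (MvPolynomial κ K) F (monomial β 1)) := by
    have h1 := (basisMonomials κ K).linearIndependent.map'
      (IsScalarTower.toAlgHom K (MvPolynomial κ K) F).toLinearMap
      (LinearMap.ker_eq_bot.2 (IsFractionRing.injective (MvPolynomial κ K) F))
    rw [coe_basisMonomials] at h1
    exact h1
  have hfin := finite_wdeg (κ := κ) a ha d
  have := hfin.fintype
  have hb' := hb.comp (Subtype.val : {β : κ →₀ ℕ | ((a * β.degree : ℕ) : ℤ) ≤ d} → (κ →₀ ℕ))
    Subtype.val_injective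
  have h2 := finrank_span_eq_card (linearIndependent_smul hb' hv)
  have h3 : filt K (fun k : κ => algebraMap (MvPolynomial κ K) F (X k)) a v (fun _ => 0) d =
      Submodule.span K (Set.range fun p : {β : κ →₀ ℕ | ((a * β.degree : ℕ) : ℤ) ≤ d} × ι =>
        ((fun β : κ →₀ ℕ => algebraMap (MvPolynomial κ K) F (monomial β 1)) ∘ Subtype.val) p.1 •
          v p.2) := by
    rw [filt]
    congr 1
    ext x
    constructor
    · rintro ⟨β, l, hβ, rfl⟩
      exact ⟨(⟨β, hβ⟩, l), by rw [prod_pow_eq]; rfl⟩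
    · rintro ⟨⟨⟨β, hβ⟩, l⟩, rfl⟩
      exact ⟨β, l, hβ, by rw [prod_pow_eq]; rfl⟩
  rw [hf, h3, h2, Fintype.card_prod, piF, Set.ncard_eq_toFinset_card', Set.toFinset_card]
  push_cast
  ring

omit [Fintype κ] [IsFractionRing (MvPolynomial κ K) F] in
theorem poly_smul_mem {ι : Type*} (a : ℕ) (v : ι → V) (Q : MvPolynomial κ K) (i : ι) (D : ℤ)
    (hD : ((a * Q.totalDegree : ℕ) : ℤ) ≤ D) :
    algebraMap (MvPolynomial κ K) F Q • v i ∈
      filt K (fun k : κ => algebraMap (MvPolynomial κ K) F (X k)) a v (fun _ => 0) D := by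
  rw [Q.as_sum, map_sum, Finset.sum_smul]
  refine Submodule.sum_mem _ fun γ hγ => ?_
  have h1 : monomial γ (coeff γ Q) = coeff γ Q • monomial γ (1 : K) := by
    rw [smul_monomial, smul_eq_mul, mul_one]
  rw [h1, Algebra.smul_def, map_mul, ← IsScalarTower.algebraMap_apply, mul_smul,
    algebraMap_smul]
  refine Submodule.smul_mem _ _ (Submodule.subset_span ⟨γ, i, ?_, by rw [prod_pow_eq]⟩)
  have h2 : γ.degree ≤ Q.totalDegree := le_totalDegree hγ
  have h3 := Nat.mul_le_mul_left a h2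
  beta_reduce
  omega

theorem sandwich (a : ℕ) (ha : 0 < a) (g : Λ → V) (dg : Λ → ℕ)
    (hspan : Submodule.span F (Set.range g) = ⊤) (p : AddMonoidAlgebra ℤ ℤ)
    (hp : act ((1 - mon 1) * (1 - mon (a : ℤ)) ^ Fintype.card κ)
      (hf (filt K (fun k : κ => algebraMap (MvPolynomial κ K) F (X k)) a g dg)) = emb p) :
    total p = finrank F V := by
  classical
  obtain ⟨b, hbg, hbs, hbl⟩ := exists_linearIndependent F (Set.range g)
  have := ((Set.finite_range g).subset hbg).fintype
  have hbs' : ⊤ ≤ Submodule.span F (Set.range (Subtype.val : b → V)) := by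
    rw [Subtype.range_coe, hbs, hspan]
  let B : Basis b F V := Basis.mk hbl hbs'
  have hB : ∀ i, B i = i.1 := fun i => Basis.mk_apply hbl hbs' i
  have hk : finrank F V = Fintype.card b := finrank_eq_card_basis B
  obtain ⟨d0, hd0⟩ := (Set.finite_range dg).bddAbove
  have hd0' : ∀ l, dg l ≤ d0 := fun l => hd0 ⟨l, rfl⟩
  set t : κ → F := fun k : κ => algebraMap (MvPolynomial κ K) F (X k) with ht
  have hlow : ∀ d, Fintype.card b * piF κ a (d - d0) ≤ hf (filt K t a g dg) d := by
    intro d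
    rw [← finrank_filt_indep (K := K) a ha (Subtype.val : b → V) hbl]
    have := filt_finDim (K := K) t a ha g dg d
    refine Int.ofNat_le.2 (Submodule.finrank_mono (Submodule.span_mono ?_))
    rintro _ ⟨β, i, hβ, rfl⟩
    obtain ⟨l, hl⟩ := hbg i.2
    refine ⟨β, l, ?_, by rw [hl]⟩
    have := hd0' l
    omega
  obtain ⟨P, hP⟩ := IsLocalization.exist_integer_multiples_of_finite
    (nonZeroDivisors (MvPolynomial κ K)) (fun x : Λ × b => B.repr (g x.1) x.2)
  choose Q hQ using hP
  obtain ⟨E, hE⟩ := (Set.finite_range fun x => (Q x).totalDegree).bddAbove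
  have hE' : ∀ x, (Q x).totalDegree ≤ E := fun x => hE ⟨x, rfl⟩
  have hP0 : algebraMap (MvPolynomial κ K) F P ≠ 0 :=
    IsFractionRing.to_map_ne_zero_of_mem_nonZeroDivisors P.2
  have hup : ∀ d, hf (filt K t a g dg) d ≤ Fintype.card b * piF κ a (d + (a * E : ℕ)) := by
    intro d
    rw [← finrank_filt_indep (K := K) a ha (Subtype.val : b → V) hbl]
    have := filt_finDim (K := K) t a ha (Subtype.val : b → V) (fun _ => 0) (d + (a * E : ℕ))
    let φ : V →ₗ[K] V := (LinearMap.lsmul F V (algebraMap (MvPolynomial κ K) F P)).restrictScalars K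
    have hφ : Function.Injective φ := smul_right_injective V hP0
    have h1 := (Submodule.equivMapOfInjective φ hφ (filt K t a g dg d)).finrank_eq
    refine Int.ofNat_le.2 (h1.le.trans (Submodule.finrank_mono ?_))
    rw [filt, Submodule.map_span, Submodule.span_le]
    rintro _ ⟨_, ⟨β, l, hβ, rfl⟩, rfl⟩
    have h2 : φ ((β.prod fun k m => t k ^ m) • g l) =
        ∑ i : b, algebraMap (MvPolynomial κ K) F (monomial β 1 * Q (l, i)) • i.1 := by
      change algebraMap (MvPolynomial κ K) F P • (β.prod fun k m => t k ^ m) • g l = _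
      rw [ht, prod_pow_eq, ← B.sum_repr (g l), Finset.smul_sum, Finset.smul_sum]
      refine Finset.sum_congr rfl fun i _ => ?_
      rw [map_mul, hQ, hB, Algebra.smul_def, smul_smul, smul_smul]
      congr 1
      ring
    rw [h2]
    refine Submodule.sum_mem _ fun i _ => poly_smul_mem a _ _ i _ ?_
    have h3 := totalDegree_mul (monomial β (1 : K)) (Q (l, i))
    have h4 : (monomial β (1 : K)).totalDegree ≤ β.degree := totalDegree_monomial_le β 1
    have h5 := hE' (l, i)
    have h6 : a * (monomial β (1 : K) * Q (l, i)).totalDegree ≤ a * (β.degree + E) :=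
      Nat.mul_le_mul_left a (by omega)
    rw [mul_add] at h6
    omega
  have hneg : ∀ d < 0, hf (filt K t a g dg) d = 0 := by
    intro d hd
    have : filt K t a g dg d = ⊥ := by
      rw [filt, Submodule.span_eq_bot]
      rintro _ ⟨β, l, hβ, rfl⟩
      omega
    rw [hf, this]
    simp
  have hpow : (1 - mon (a : ℤ)) ^ (Fintype.card κ + 1) =
      geo a * ((1 - mon 1) * (1 - mon (a : ℤ)) ^ Fintype.card κ) := by
    rw [pow_succ', ← mul_assoc, mul_comm (geo a), geo_mul]
  have hH : act ((1 - mon (a : ℤ)) ^ (Fintype.card κ + 1)) (hf (filt K t a g dg)) =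
      emb (geo a * p) := by
    rw [hpow, act_mul_apply, hp, act_emb]
  have hPi : ∀ c : ℤ, act ((1 - mon (a : ℤ)) ^ (Fintype.card κ + 1))
      (act ((Fintype.card b : AddMonoidAlgebra ℤ ℤ) * mon c) (piF κ a)) =
      emb ((Fintype.card b : AddMonoidAlgebra ℤ ℤ) * mon c * geo a) := by
    intro c
    rw [← act_mul_apply, mul_comm, act_mul_apply, hpow, act_mul_apply (geo a),
      mul_comm (1 - mon 1), act_mul_apply _ (1 - mon 1), act_piF κ a ha, act_mu a _ ha, act_emb,
      act_emb, mul_one]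
  have hev : ∀ c d : ℤ, act ((Fintype.card b : AddMonoidAlgebra ℤ ℤ) * mon c) (piF κ a) d =
      Fintype.card b * piF κ a (d - c) := by
    intro c d
    simp
  have t1 := total_nonneg a (Fintype.card κ + 1) ha
    (hf (filt K t a g dg) - act ((Fintype.card b : AddMonoidAlgebra ℤ ℤ) * mon (d0 : ℤ)) (piF κ a))
    (fun d => by
      have := hlow d
      rw [Pi.sub_apply, hev]
      omega)
    ⟨0, fun d hd => by rw [Pi.sub_apply, hev, hneg d hd, piF_neg κ a _ (by omega)]; simp⟩
    _ (by rw [map_sub, hH, hPi, ← emb_sub])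
  have t2 := total_nonneg a (Fintype.card κ + 1) ha
    (act ((Fintype.card b : AddMonoidAlgebra ℤ ℤ) * mon (-((a * E : ℕ) : ℤ))) (piF κ a) -
      hf (filt K t a g dg))
    (fun d => by
      have := hup d
      rw [Pi.sub_apply, hev, sub_neg_eq_add]
      omega)
    ⟨-((a * E : ℕ) : ℤ), fun d hd => by
      rw [Pi.sub_apply, hev, hneg d (by omega), piF_neg κ a _ (by omega)]; simp⟩
    _ (by rw [map_sub, hH, hPi, ← emb_sub])
  simp only [map_sub, map_mul, total_geo, total_mon, map_natCast, mul_one] at t1 t2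
  rw [hk]
  have ha' : (0 : ℤ) < a := by omega
  have : (a : ℤ) * total p = a * Fintype.card b := by linarith
  exact mul_left_cancel₀ ha'.ne' this

end Vale.Agent.P200
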