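import Vale.Agent.P200.Cone
import Vale.Agent.P200.Sandwich
import Vale.Agent.P200.Cyclo
import Vale.Agent.P200.DivisAux

/-! The divisibility theorem for modules over generalized Clifford algebras of a generic member
of a base point free linear system. -/

namespace Vale.Agent.P200

open Module MvPolynomial TensorProduct

theorem divis_core {K : Type*} [Field K] {F : Type*} [Field F] [Algebra K F] {κ ι Λ : Type*}
    [Fintype κ] [Fintype ι] [Finite Λ]
    {V : Type*} [AddCommGroup V] [Module K V] [Module F V] [IsScalarTower K F V]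
    (a : ℕ) (ha : 2 ≤ a) (t : κ → F) (g : Λ → V) (dg : Λ → ℕ) (γ : ι → Module.End F V)
    (q : κ → MvPolynomial ι K) (hq : ∀ k, (q k).IsHomogeneous a)
    (hprim : ∀ j, (X j : MvPolynomial ι K) ∈ (Ideal.span (Set.range q)).radical)
    (hpow : ∀ x, ((∑ j, (X j : MvPolynomial ι F) • (γ j).baseChange (MvPolynomial ι F)) ^ a) x =
      (∑ k, C (t k) * map (algebraMap K F) (q k)) • x)
    (hγ : ∀ j d v, v ∈ filt K t a g dg d → γ j v ∈ filt K t a g dg (d + 1))
    (p : AddMonoidAlgebra ℤ ℤ)
    (hp : act ((1 - mon 1) * (1 - mon (a : ℤ)) ^ Fintype.card κ) (hf (filt K t a g dg)) = emb p) :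
    (a : ℤ) ^ Fintype.card ι ∣ total p := by
  classical
  set M := filt K t a g dg with hM
  have hfd : FinDim M := filt_finDim t a (by omega) g dg
  let T : Option κ ⊕ ι → MvPolynomial ι F :=
    Sum.elim (fun o => o.elim 1 fun k => C (t k)) X
  let e : Option κ ⊕ ι → ℤ × ℤ :=
    Sum.elim (fun o => o.elim (1, 0) fun _ => (a, 0)) fun _ => (0, 1)
  let φ : Module.End (MvPolynomial ι F) (MvPolynomial ι F ⊗[F] V) :=
    ∑ j, (X j : MvPolynomial ι F) • (γ j).baseChange (MvPolynomial ι F)
  let L : List ((ℤ × ℤ) × MvPolynomial ι F × MvPolynomial ι F) :=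
    Finset.univ.toList.map fun k => (((a : ℤ), (0 : ℤ)), C (t k), map (algebraMap K F) (q k))
  have hXm : ∀ (j : ι) (α : ι →₀ ℕ), (X j : MvPolynomial ι F) * monomial α 1 =
      monomial (α + Finsupp.single j 1) 1 := by
    intro j α
    rw [mul_comm, monomial_add_single, pow_one]
  have hCm : ∀ (c : F) (r : MvPolynomial ι F) (v : V),
      (C c : MvPolynomial ι F) • r ⊗ₜ[F] v = r ⊗ₜ[F] (c • v) := by
    intro c r v
    rw [smul_tmul', smul_eq_mul, ← smul_eq_C_mul, smul_tmul]
  have hs : Stable T e (dvX ι F M) := by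
    intro i d x hx
    refine dvX_map (LinearMap.lsmul _ _ (T i)) _ (fun α v h1 h2 => ?_) hx
    rw [LinearMap.lsmul_apply]
    rcases i with (_ | k) | j
    · simp only [T, e, Sum.elim_inl, Option.elim_none, one_smul]
      exact dvX_gen (by simpa using h1) (dv_filt_mono t a g dg (by simp) h2)
    · simp only [T, e, Sum.elim_inl, Option.elim_some, hCm]
      exact dvX_gen (by simpa using h1) (dv_filt_t t a g dg k h2)
    · simp only [T, e, Sum.elim_inr]
      rw [smul_tmul', smul_eq_mul, hXm]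
      exact dvX_gen (by simp [h1]) (by simpa using h2)
  have hfg : FGen T e (dvX ι F M) := by
    refine ⟨Set.range fun l => (((dg l : ℤ), (0 : ℤ)), (1 : MvPolynomial ι F) ⊗ₜ[F] g l),
      Set.finite_range _, ?_, fun d x hx => ?_⟩
    · rintro _ ⟨l, rfl⟩
      refine dvX_gen (α := 0) (by simp) ?_
      simpa using dv_filt_gen (K := K) t a g dg 0 l (d := dg l) (by simp)
    · refine dvX_map LinearMap.id _ (fun α v h1 h2 => ?_) hx
      refine dv_filt_map t a g dg (dvMk K (monomial α (1 : F))) _ d.1 (fun β l h => ?_) h2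
      obtain ⟨n, hn⟩ := Int.eq_ofNat_of_zero_le (sub_nonneg.2 h)
      have h3 := Maps.of_mem_Gen_one (Gen_stable (K := K) T e (Set.range fun l =>
        (((dg l : ℤ), (0 : ℤ)), (1 : MvPolynomial ι F) ⊗ₜ[F] g l)))
        (dv_mul (dv_mul (dv_pow T e (Sum.inl none) n)
          (dv_prod T e (fun k => Sum.inl (some k)) ((a : ℤ), (0 : ℤ)) (fun _ => rfl) β))
          (dv_monomial T e Sum.inr ((0 : ℤ), (1 : ℤ)) (fun _ => rfl) (fun _ => rfl) α)) _ _
        (mem_Gen T e (p := (((dg l : ℤ), (0 : ℤ)), (1 : MvPolynomial ι F) ⊗ₜ[F] g l)) ⟨l, rfl⟩)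
      have h4 : (((dg l : ℤ), (0 : ℤ)) : ℤ × ℤ) + (n • e (Sum.inl none) +
          β.degree • ((a : ℤ), (0 : ℤ)) + α.degree • ((0 : ℤ), (1 : ℤ))) = d := by
        refine Prod.ext ?_ ?_
        · simp only [e, Sum.elim_inl, Option.elim_none, Prod.smul_mk, Prod.mk_add_mk, nsmul_eq_mul,
            mul_one, mul_zero, add_zero]
          push_cast at hn
          linarith
        · simp [e, h1]
      have h5 : (β.prod fun k m => T (Sum.inl (some k)) ^ m) =
          C (β.prod fun k m => t k ^ m) := by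
        simp [T, map_finsuppProd]
      rw [h4, h5] at h3
      have h6 : T (Sum.inl none) = 1 := rfl
      rw [h6, one_pow, one_mul, mul_smul, smul_tmul', smul_eq_mul, mul_one, hCm] at h3
      exact h3
  have hfX : FinDim (dvX ι F M) := fun d => (dvX_finrank M hfd d).1
  have hφ : ∀ d x, x ∈ dvX ι F M d → φ x ∈ dvX ι F M (d + (1, 1)) := by
    intro d x hx
    refine dvX_map φ _ (fun α v h1 h2 => ?_) hx
    simp only [φ, LinearMap.sum_apply, LinearMap.smul_apply, LinearMap.baseChange_tmul]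
    refine Submodule.sum_mem _ fun j _ => ?_
    rw [smul_tmul', smul_eq_mul, hXm]
    exact dvX_gen (by simp [h1]) (hγ j _ _ h2)
  have hφn : ∀ (n : ℕ) d x, x ∈ dvX ι F M d → (φ ^ n) x ∈ dvX ι F M (d + ((n : ℤ), (n : ℤ))) := by
    intro n
    induction n with
    | zero =>
      intro d x hx
      have : d + (((0 : ℕ) : ℤ), ((0 : ℕ) : ℤ)) = d := by ext <;> simp
      rw [this]
      simpa using hx
    | succ n ih =>
      intro d x hx
      have : d + (((n + 1 : ℕ) : ℤ), ((n + 1 : ℕ) : ℤ)) = d + ((n : ℤ), (n : ℤ)) + (1, 1) := by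
        ext <;> simp [add_assoc]
      rw [this, pow_succ', Module.End.mul_apply]
      exact hφ _ _ (ih d x hx)
  have hLs : (L.map fun p => p.2.1 * p.2.2).sum = ∑ k, C (t k) * map (algebraMap K F) (q k) := by
    simp only [L, List.map_map]
    exact Finset.sum_map_toList _ _
  have hLp : (L.map fun p => 1 - mon p.1).prod =
      (1 - mon ((a : ℤ), (0 : ℤ))) ^ Fintype.card κ := by
    simp only [L, List.map_map]
    rw [Finset.prod_map_toList]
    simp
  have huv : ((1 : ℤ), (1 : ℤ)) + (((a - 1 : ℕ) : ℤ), ((a - 1 : ℕ) : ℤ)) = ((a : ℤ), (a : ℤ)) := by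
    have : ((a - 1 : ℕ) : ℤ) = a - 1 := by omega
    ext <;> simp [this]
  have huv' : ((a : ℤ), (a : ℤ)) - ((a : ℤ), (0 : ℤ)) = a • ((0 : ℤ), (1 : ℤ)) := by
    ext <;> simp
  have hall : ∏ i, (1 - mon (e i)) = (1 - mon ((1 : ℤ), (0 : ℤ))) *
      (1 - mon ((a : ℤ), (0 : ℤ))) ^ Fintype.card κ *
        (1 - mon ((0 : ℤ), (1 : ℤ))) ^ Fintype.card ι := by
    rw [Fintype.prod_sum_type, Fintype.prod_option]
    simp [e]
  have hcompl : ∏ i ∈ ({Sum.inl none} : Finset (Option κ ⊕ ι))ᶜ, (1 - mon (e i)) =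
      (1 - mon ((a : ℤ), (0 : ℤ))) ^ Fintype.card κ *
        (1 - mon ((0 : ℤ), (1 : ℤ))) ^ Fintype.card ι := by
    rw [← Finset.univ_inter (_ᶜ), ← Finset.prod_ite_mem, Fintype.prod_sum_type,
      Fintype.prod_option]
    simp [e]
  have hp0 : act (∏ i, (1 - mon (e i))) (hf (dvX ι F M)) =
      emb (AddMonoidAlgebra.mapDomain (fun d : ℤ => (d, (0 : ℤ))) p) := by
    have : hf (dvX ι F M) = fun d => dvC (Fintype.card ι) d.2 * hf M d.1 :=
      funext fun d => (dvX_finrank M hfd d).2
    rw [hall, this]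
    exact dv_act_all _ _ _ _ _ hp
  have key := cone_main (K := K) T e (1, 1) (((a - 1 : ℕ) : ℤ), ((a - 1 : ℕ) : ℤ))
    {Sum.inl none} L (MvPolynomial ι F ⊗[F] V) (dvX ι F M) (dvX ι F M) φ (φ ^ (a - 1))
    hs hs hfg hfg hfX hfX hφ (hφn (a - 1))
    (fun x => by
      rw [hLs, ← hpow, ← Module.End.mul_apply, ← pow_succ, Nat.sub_add_cancel (by omega)])
    (fun x => by
      rw [hLs, ← hpow, ← Module.End.mul_apply, ← pow_succ', Nat.sub_add_cancel (by omega)])
    (fun z hz => by
      obtain ⟨k, -, rfl⟩ := List.mem_map.1 hz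
      refine ⟨dv_T T e (Sum.inl (some k)), ?_⟩
      rw [huv, huv']
      exact dv_homog T e Sum.inr _ (fun _ => rfl) (fun _ => rfl) (hq k))
    (fun i hi => by
      rcases i with (_ | k) | j
      · exact absurd (Finset.mem_singleton_self _) hi
      · refine ⟨1, ?_⟩
        rw [pow_one, one_smul]
        exact mem_Gen T e (p := (((a : ℤ), (0 : ℤ)), C (t k))) ⟨_, List.mem_map.2
          ⟨k, Finset.mem_toList.2 (Finset.mem_univ k), rfl⟩, Or.inl rfl⟩
      · obtain ⟨n, r, hr, hX⟩ := dv_nil a q hq j (hprim j)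
        refine ⟨n + a, ?_⟩
        have h1 : T (Sum.inr j) ^ (n + a) =
            ∑ k, map (algebraMap K F) (r k) • map (algebraMap K F) (q k) := by
          have := congrArg (map (algebraMap K F)) hX
          simpa [T] using this
        have h2 : (n + a) • e (Sum.inr j) = a • ((0 : ℤ), (1 : ℤ)) + n • ((0 : ℤ), (1 : ℤ)) := by
          rw [add_comm n, add_nsmul]
          rfl
        rw [h1, h2]
        refine Submodule.sum_mem _ fun k _ => Maps.of_mem_Gen_one (Gen_stable T e _)
          (dv_homog T e Sum.inr _ (fun _ => rfl) (fun _ => rfl) (hr k)) _ _ ?_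
        refine mem_Gen T e (p := (a • ((0 : ℤ), (1 : ℤ)), map (algebraMap K F) (q k)))
          ⟨_, List.mem_map.2 ⟨k, Finset.mem_toList.2 (Finset.mem_univ k), rfl⟩, Or.inr ?_⟩
        rw [huv, huv'])
    _ _ hp0 hp0
  rw [hLp, hcompl, huv] at key
  exact cyclo a _ _ ha p key

theorem divis {K : Type*} [Field K] {F : Type*} [Field F] [Algebra K F] {κ ι Λ : Type*}
    [Fintype κ] [Fintype ι] [Finite Λ]
    [Algebra (MvPolynomial κ K) F] [IsFractionRing (MvPolynomial κ K) F]
    [IsScalarTower K (MvPolynomial κ K) F]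
    {D : Type*} [Ring D] [Algebra F D] [Algebra K D] [IsScalarTower K F D]
    (a : ℕ) (ha : 2 ≤ a) (γ : ι → D) (q : κ → MvPolynomial ι K)
    (hq : ∀ k, (q k).IsHomogeneous a)
    (hprim : ∀ j, (X j : MvPolynomial ι K) ∈ (Ideal.span (Set.range q)).radical)
    (hpow : (∑ j, (X j : MvPolynomial ι F) ⊗ₜ[F] γ j) ^ a =
      (∑ k, C (algebraMap (MvPolynomial κ K) F (X k)) * map (algebraMap K F) (q k)) ⊗ₜ[F] (1 : D))
    (w : Λ → D) (dw : Λ → ℕ) (l0 : Λ) (hl0 : w l0 = 1)
    (hγ : ∀ j l, γ j * w l ∈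
      filt K (fun k : κ => algebraMap (MvPolynomial κ K) F (X k)) a w dw ((dw l : ℤ) + 1))
    (V : Type*) [AddCommGroup V] [Module F V] [Module D V] [IsScalarTower F D V]
    [FiniteDimensional F V] :
    a ^ Fintype.card ι ∣ finrank F V := by
  letI : Module K V := Module.compHom V (algebraMap K F)
  haveI : IsScalarTower K F V := IsScalarTower.of_compHom K F V
  let b := Module.finBasis F V
  set t : κ → F := fun k => algebraMap (MvPolynomial κ K) F (X k) with ht
  let g : Λ × Fin (finrank F V) → V := fun l => w l.1 • b l.2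
  let dg : Λ × Fin (finrank F V) → ℕ := fun l => dw l.1
  obtain ⟨p, hp⟩ := dv_stage1 t a g dg (filt_finDim (K := K) t a (by omega) g dg)
  have hspan : Submodule.span F (Set.range g) = ⊤ := by
    rw [eq_top_iff, ← b.span_eq]
    refine Submodule.span_mono ?_
    rintro _ ⟨i, rfl⟩
    exact ⟨(l0, i), by simp [g, hl0]⟩
  have htot := sandwich a (by omega) g dg hspan p hp
  have hact : ∀ (i : Fin (finrank F V)) (d : ℤ) (y : D), y ∈ filt K t a w dw d →
      y • b i ∈ filt K t a g dg d := by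
    intro i d y hy
    let f : D →ₗ[K] V :=
      { toFun := fun y => y • b i
        map_add' := fun y y' => add_smul _ _ _
        map_smul' := fun c y => by
          rw [RingHom.id_apply, ← algebraMap_smul F c y, smul_assoc, algebraMap_smul] }
    refine dv_filt_map t a w dw f _ d (fun β l h => ?_) hy
    show ((β.prod fun k m => t k ^ m) • w l) • b i ∈ _
    rw [smul_assoc]
    exact dv_filt_gen t a g dg β (l, i) h
  have hdvd := divis_core a ha t g dg (fun j => Algebra.lsmul F F V (γ j)) q hq hprim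
    (fun x => by
      let Ψ : MvPolynomial ι F ⊗[F] D →ₐ[MvPolynomial ι F]
          Module.End (MvPolynomial ι F) (MvPolynomial ι F ⊗[F] V) :=
        (LinearMap.tensorProductEnd F (MvPolynomial ι F) V).comp
          (Algebra.TensorProduct.map (AlgHom.id _ _) (Algebra.lsmul F F V))
      have hΨ : ∀ (r : MvPolynomial ι F) (y : D), Ψ (r ⊗ₜ[F] y) =
          r • (Algebra.lsmul F F V y).baseChange (MvPolynomial ι F) := fun r y => rfl
      have h1 := congrArg Ψ hpow
      rw [map_pow, map_sum, hΨ, map_one, LinearMap.baseChange_one] at h1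
      simp only [hΨ] at h1
      rw [h1]
      rfl)
    (fun j d v hv => by
      refine dv_filt_map t a g dg ((Algebra.lsmul F F V (γ j)).restrictScalars K) _ d
        (fun β l h => ?_) hv
      rw [LinearMap.restrictScalars_apply, map_smul]
      show (β.prod fun k m => t k ^ m) • γ j • w l.1 • b l.2 ∈ _
      rw [← mul_smul (γ j)]
      refine dv_filt_mono t a g dg ?_ (dv_filt_tpow t a g dg β (hact l.2 _ _ (hγ j l.1)))
      simp only [dg] at h
      push_cast at h ⊢
      linarith) p hp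
  rw [htot] at hdvd
  exact_mod_cast hdvd

end Vale.Agent.P200
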