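import Vale.Agent.P200.Defs

/-! Basic API for families and a Hilbert-Serre theorem for subquotients of a finitely
generated family. -/

namespace Vale.Agent.P200

open Module

variable {K : Type*} [Field K] {R : Type*} [CommRing R]
variable {G : Type*} [AddCommGroup G]
variable {V : Type*} [AddCommGroup V] [Module K V] [Module R V]

theorem mem_Gen_iff {I : Type*} {T : I → R} {e : I → G} {s : Set (G × V)} {g : G} {v : V} :
    v ∈ Gen K T e s g ↔
      ∀ W : G → Submodule K V, Stable T e W → (∀ p ∈ s, p.2 ∈ W p.1) → v ∈ W g := by
  simp only [Gen, sInf_apply, Submodule.mem_iInf, Subtype.forall, Set.mem_ofPred_eq]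
  exact ⟨fun h W h1 h2 => h W ⟨h1, h2⟩, fun h W hW => h W hW.1 hW.2⟩

theorem Gen_stable {I : Type*} (T : I → R) (e : I → G) (s : Set (G × V)) :
    Stable T e (Gen K T e s) := fun i g v hv =>
  mem_Gen_iff.2 fun W h1 h2 => h1 i g v (mem_Gen_iff.1 hv W h1 h2)

theorem mem_Gen {I : Type*} (T : I → R) (e : I → G) {s : Set (G × V)} {p : G × V}
    (hp : p ∈ s) : p.2 ∈ Gen K T e s p.1 :=
  mem_Gen_iff.2 fun _ _ h2 => h2 p hp

theorem Gen_le {I : Type*} {T : I → R} {e : I → G} {s : Set (G × V)} {W : G → Submodule K V}
    (h1 : Stable T e W) (h2 : ∀ p ∈ s, p.2 ∈ W p.1) : Gen K T e s ≤ W :=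
  fun _ _ hv => mem_Gen_iff.1 hv W h1 h2

variable [Algebra K R] [IsScalarTower K R V]

/-- If the generators `p.2` of a family of ring elements map `U` to `W`, and `W` is stable, then
so do all members of the generated family. -/
theorem Maps.of_mem_Gen {I : Type*} {T : I → R} {e : I → G} {s : Set (G × R)}
    {U W : G → Submodule K V} (hW : Stable T e W) (hs : ∀ p ∈ s, Maps p.2 p.1 U W)
    {r : R} {a : G} (hr : r ∈ Gen K T e s a) : Maps r a U W := by
  let A : G → Submodule K R := fun a =>
    { carrier := {r | Maps r a U W}
      add_mem' := fun {x y} hx hy g v hv => by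
        rw [add_smul]; exact (W _).add_mem (hx g v hv) (hy g v hv)
      zero_mem' := fun g v _ => by rw [zero_smul]; exact (W _).zero_mem
      smul_mem' := fun c x hx g v hv => by
        rw [smul_assoc]; exact (W _).smul_mem c (hx g v hv) }
  have hA : Stable T e A := fun i a x hx g v hv => by
    rw [smul_eq_mul, mul_smul, ← add_assoc]
    exact hW i _ _ (hx g v hv)
  exact Gen_le hA hs a hr

/-- Homogeneous elements of the algebra generated by the operators preserve stable families. -/
theorem Maps.of_mem_Gen_one {I : Type*} {T : I → R} {e : I → G}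
    {U : G → Submodule K V} (hU : Stable T e U)
    {r : R} {a : G} (hr : r ∈ Gen K T e {((0 : G), (1 : R))} a) : Maps r a U U :=
  Maps.of_mem_Gen hU (fun p hp g v hv => by
    rw [Set.mem_singleton_iff.1 hp]; simpa using hv) hr

/-- Multiplication by a ring element as a `K`-linear map. -/
def mulK (K : Type*) [Field K] [Algebra K R] (V : Type*) [AddCommGroup V] [Module K V]
    [Module R V] [IsScalarTower K R V] (r : R) : V →ₗ[K] V :=
  (LinearMap.lsmul R V r).restrictScalars K

@[simp] theorem mulK_apply (r : R) (v : V) : mulK K V r v = r • v := rfl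

/-- Shifted multiplication on finitely supported families of vectors. -/
noncomputable def shOp (K : Type*) [Field K] [Algebra K R] (V : Type*) [AddCommGroup V]
    [Module K V] [Module R V] [IsScalarTower K R V] (r : R) (a : G) :
    Module.End K (G →₀ V) :=
  (Finsupp.mapRange.linearMap (mulK K V r)) ∘ₗ
    (Finsupp.domLCongr (R := K) (M := V) (Equiv.addRight a)).toLinearMap

theorem shOp_apply (r : R) (a : G) (w : G →₀ V) (g : G) :
    shOp K V r a w g = r • w (g - a) := by
  simp [shOp, sub_eq_add_neg]

theorem shOp_single (r : R) (a : G) (g : G) (v : V) :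
    shOp K V r a (Finsupp.single g v) = Finsupp.single (g + a) (r • v) := by
  simp [shOp]

/-- If all operators map `U` into `U'`, then `U` and `U'` agree in almost all degrees. -/
theorem finite_ne_of_maps {I : Type*} [Finite I] (T : I → R) (e : I → G)
    (U0 : G → Submodule K V) (hfg : FGen T e U0)
    (U U' : G → Submodule K V) (hU : Stable T e U) (hle : U' ≤ U)
    (hle0 : U ≤ U0) (hm : ∀ i, Maps (T i) (e i) U U') : {g | U g ≠ U' g}.Finite := by
  classical
  obtain ⟨s, hs, -, hgen⟩ := hfg
  let S : Set (Module.End K (G →₀ V)) := Set.range fun i => shOp K V (T i) (e i)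
  have hcomm : ∀ x ∈ S, ∀ y ∈ S, x * y = y * x := by
    rintro _ ⟨i, rfl⟩ _ ⟨j, rfl⟩
    refine LinearMap.ext fun w => Finsupp.ext fun g => ?_
    simp only [Module.End.mul_apply, shOp_apply, smul_smul]
    rw [mul_comm, sub_right_comm]
  let O := Algebra.adjoin K S
  have : IsMulCommutative O := Algebra.isMulCommutative_adjoin K hcomm
  have hN : IsNoetherianRing O := by
    open scoped IsMulCommutative in
    have : Algebra.FiniteType K O :=
      (Subalgebra.fg_iff_finiteType O).1 (Subalgebra.fg_def.2 ⟨S, Set.finite_range _, rfl⟩)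
    open scoped IsMulCommutative in
    exact Algebra.FiniteType.isNoetherianRing K O
  let N : (W : G → Submodule K V) → Stable T e W → Submodule O (G →₀ V) := fun W hW =>
    { carrier := {w | ∀ g, w g ∈ W g}
      add_mem' := fun {x y} hx hy g => (W g).add_mem (hx g) (hy g)
      zero_mem' := fun g => (W g).zero_mem
      smul_mem' := fun o w hw => by
        obtain ⟨o, ho⟩ := o
        change ∀ g, o w g ∈ W g
        induction ho using Algebra.adjoin_induction generalizing w with
        | mem x hx =>
          obtain ⟨i, rfl⟩ := hx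
          intro g
          rw [shOp_apply]
          have := hW i (g - e i) _ (hw (g - e i))
          rwa [sub_add_cancel] at this
        | algebraMap c =>
          intro g
          exact (W g).smul_mem c (hw g)
        | add x y _ _ hx hy =>
          intro g
          exact (W g).add_mem (hx w hw g) (hy w hw g)
        | mul x y _ _ hx hy => exact hx (y w) (hy w hw) }
  let M0 : Submodule O (G →₀ V) := Submodule.span O ((fun p : G × V => Finsupp.single p.1 p.2) '' s)
  have hM0 : M0.FG := Submodule.fg_span (hs.image _)
  have hNM : N U hU ≤ M0 := by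
    let A : G → Submodule K V := fun g =>
      { carrier := {v | Finsupp.single g v ∈ M0}
        add_mem' := fun {x y} hx hy => by
          change Finsupp.single g (x + y) ∈ M0
          rw [Finsupp.single_add]
          exact M0.add_mem hx hy
        zero_mem' := by
          change Finsupp.single g 0 ∈ M0
          rw [Finsupp.single_zero]
          exact M0.zero_mem
        smul_mem' := fun c x hx => by
          change Finsupp.single g (c • x) ∈ M0
          rw [← Finsupp.smul_single]
          exact M0.smul_mem (algebraMap K O c) hx }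
    have hA : Stable T e A := fun i g v hv => by
      change Finsupp.single (g + e i) (T i • v) ∈ M0
      rw [← shOp_single (K := K)]
      exact M0.smul_mem ⟨_, Algebra.subset_adjoin ⟨i, rfl⟩⟩ hv
    have hGA : Gen K T e s ≤ A := Gen_le hA fun p hp => Submodule.subset_span ⟨p, hp, rfl⟩
    intro w hw
    rw [← Finsupp.sum_single w]
    exact M0.sum_mem fun g _ => hGA g (hgen g (hle0 g (hw g)))
  have hNfg : (N U hU).FG := @Submodule.FG.of_le O (G →₀ V) _ _ _ hN (N U hU) M0 hM0 hNM
  obtain ⟨t, ht⟩ := hNfg
  let B : Finset G := t.biUnion fun w => w.support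
  let F : G → Submodule K V := fun g => if g ∈ B then U g else U' g
  have hFU : ∀ g, F g ≤ U g := fun g => by
    simp only [F]
    split_ifs
    · exact le_rfl
    · exact hle g
  have hUF : ∀ g, U' g ≤ F g := fun g => by
    simp only [F]
    split_ifs
    · exact hle g
    · exact le_rfl
  have hF : Stable T e F := fun i g v hv => hUF _ (hm i g v (hFU g hv))
  have hNF : N U hU ≤ N F hF := by
    rw [← ht, Submodule.span_le]
    intro w hw g
    by_cases hg : g ∈ w.support
    · have hB : g ∈ B := Finset.mem_biUnion.2 ⟨w, hw, hg⟩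
      have hwU : w ∈ N U hU := ht ▸ Submodule.subset_span hw
      simp only [F, if_pos hB]
      exact hwU g
    · rw [Finsupp.notMem_support_iff.1 hg]
      exact (F g).zero_mem
  refine B.finite_toSet.subset fun g hg => ?_
  by_contra hB
  refine hg (le_antisymm (fun v hv => ?_) (hle g))
  have h1 : Finsupp.single g v ∈ N U hU := fun g' => by
    rw [Finsupp.single_apply]
    split_ifs with h
    · exact h ▸ hv
    · exact (U g').zero_mem
  have h2 : Finsupp.single g v g ∈ F g := hNF h1 g
  have hB' : g ∉ B := hB
  simpa [F, hB'] using h2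

/-- The family `U' + r U`. -/
def supMap (r : R) (a : G) (U U' : G → Submodule K V) : G → Submodule K V :=
  fun g => U' g ⊔ (U (g - a)).map (mulK K V r)

/-- The family of those elements of `U` that `r` maps into `U'`. -/
def infComap (r : R) (a : G) (U U' : G → Submodule K V) : G → Submodule K V :=
  fun g => U g ⊓ (U' (g + a)).comap (mulK K V r)

theorem le_supMap (r : R) (a : G) (U U' : G → Submodule K V) : U' ≤ supMap r a U U' :=
  fun _ => le_sup_left

theorem supMap_le {r : R} {a : G} {U U' : G → Submodule K V} (hle : U' ≤ U) (hr : Maps r a U U) :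
    supMap r a U U' ≤ U := fun g => by
  refine sup_le (hle g) ?_
  rintro _ ⟨v, hv, rfl⟩
  have := hr _ v hv
  rwa [sub_add_cancel] at this

theorem maps_supMap (r : R) (a : G) (U U' : G → Submodule K V) : Maps r a U (supMap r a U U') :=
  fun g v hv => Submodule.mem_sup_right ⟨v, by rwa [add_sub_cancel_right], rfl⟩

theorem Maps.supMap {r r' : R} {a a' : G} {U U' W : G → Submodule K V} (h1 : Maps r' a' U' W)
    (h2 : Maps (r' * r) (a + a') U W) : Maps r' a' (supMap r a U U') W := by
  intro g v hv
  obtain ⟨x, hx, _, ⟨y, hy, rfl⟩, rfl⟩ := Submodule.mem_sup.1 hv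
  rw [smul_add]
  refine (W _).add_mem (h1 g x hx) ?_
  have := h2 _ y hy
  rw [← add_assoc, sub_add_cancel, mul_smul] at this
  exact this

theorem stable_supMap {I : Type*} {T : I → R} {e : I → G} (r : R) (a : G)
    {U U' : G → Submodule K V} (hU : Stable T e U) (hU' : Stable T e U') :
    Stable T e (supMap r a U U') := fun i => by
  refine Maps.supMap (fun g v hv => le_supMap r a U U' _ (hU' i g v hv)) fun g v hv => ?_
  have := maps_supMap r a U U' _ _ (hU i g v hv)
  rw [mul_comm, mul_smul, add_comm a, ← add_assoc]
  exact this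

theorem infComap_le (r : R) (a : G) (U U' : G → Submodule K V) : infComap r a U U' ≤ U :=
  fun _ => inf_le_left

theorem le_infComap {r : R} {a : G} {U U' : G → Submodule K V} (hle : U' ≤ U)
    (hr : Maps r a U' U') : U' ≤ infComap r a U U' :=
  fun g _ hv => ⟨hle g hv, hr g _ hv⟩

theorem maps_infComap (r : R) (a : G) (U U' : G → Submodule K V) :
    Maps r a (infComap r a U U') U' := fun _ _ hv => hv.2

theorem stable_infComap {I : Type*} {T : I → R} {e : I → G} (r : R) (a : G)
    {U U' : G → Submodule K V} (hU : Stable T e U) (hU' : Stable T e U') :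
    Stable T e (infComap r a U U') := fun i g v hv => by
  refine ⟨hU i g v hv.1, ?_⟩
  have := hU' i _ _ hv.2
  change r • T i • v ∈ U' (g + e i + a)
  rw [smul_comm, add_right_comm]
  exact this

theorem finite_ne_of_nil_aux {I : Type*} [Finite I] (T : I → R) (e : I → G)
    (U0 : G → Submodule K V) (hfg : FGen T e U0) (S : Finset I) :
    ∀ (U U' : G → Submodule K V), Stable T e U → Stable T e U' → U' ≤ U → U ≤ U0 →
      (∀ i, i ∉ S → Maps (T i) (e i) U U') →
      (∀ i, i ∈ S → ∃ m : ℕ, Maps (T i ^ m) (m • e i) U U') → {g | U g ≠ U' g}.Finite := by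
  classical
  induction S using Finset.induction_on with
  | empty =>
    intro U U' hU _ hle hle0 h1 _
    exact finite_ne_of_maps T e U0 hfg U U' hU hle hle0 fun i => h1 i (by simp)
  | insert i S hi ih =>
    intro U U' hU hU' hle hle0 h1 h2
    obtain ⟨m, hm⟩ := h2 i (Finset.mem_insert_self _ _)
    induction m generalizing U with
    | zero =>
      refine Set.finite_empty.subset fun g hg => hg (le_antisymm (fun v hv => ?_) (hle g))
      simpa using hm g v hv
    | succ m ihm =>
      have hC := stable_supMap (T i) (e i) hU hU'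
      have hCU : supMap (T i) (e i) U U' ≤ U := supMap_le hle (hU i)
      have hUC := le_supMap (T i) (e i) U U'
      have f1 := ih U _ hU hC hCU hle0 (fun j hj => by
        by_cases hji : j = i
        · subst hji
          exact maps_supMap _ _ _ _
        · exact fun g v hv => hUC _ (h1 j (by simp [hji, hj]) g v hv)) (fun j hj => by
        obtain ⟨m', hm'⟩ := h2 j (Finset.mem_insert_of_mem hj)
        exact ⟨m', fun g v hv => hUC _ (hm' g v hv)⟩)
      have hpow : ∀ k : ℕ, Maps (T i ^ k) (k • e i) U' U' := by
        intro k
        induction k with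
        | zero => intro g v hv; simpa using hv
        | succ k ihk =>
          intro g v hv
          rw [pow_succ', mul_smul, succ_nsmul, ← add_assoc]
          exact hU' i _ _ (ihk g v hv)
      have f2 := ihm _ hC hUC (hCU.trans hle0) (fun j hj g v hv => h1 j hj g v (hCU g hv))
        (fun j hj => by
          obtain ⟨m', hm'⟩ := h2 j hj
          exact ⟨m', fun g v hv => hm' g v (hCU g hv)⟩)
        (Maps.supMap (hpow m) (by rw [← pow_succ, ← succ_nsmul']; exact hm))
      refine (f1.union f2).subset fun g hg => ?_
      by_contra hc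
      simp only [Set.mem_union, Set.mem_ofPred_eq, not_or, not_not] at hc
      exact hg (hc.1.trans hc.2)

theorem finrank_map_add_finrank_inf_ker {V' : Type*} [AddCommGroup V'] [Module K V']
    (f : V →ₗ[K] V') (A : Submodule K V) [FiniteDimensional K A] :
    finrank K (A.map f) + finrank K (A ⊓ LinearMap.ker f : Submodule K V) = finrank K A := by
  have h := LinearMap.finrank_range_add_finrank_ker (f.domRestrict A)
  rw [LinearMap.range_domRestrict, LinearMap.ker_domRestrict,
    ← Submodule.finrank_map_subtype_eq A, Submodule.map_comap_subtype] at h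
  exact h

theorem finrank_sup_map_add {V' : Type*} [AddCommGroup V'] [Module K V']
    (f : V →ₗ[K] V') (A : Submodule K V) (B : Submodule K V') [FiniteDimensional K A]
    [FiniteDimensional K B] :
    finrank K (B ⊔ A.map f : Submodule K V') + finrank K (A ⊓ B.comap f : Submodule K V) =
      finrank K A + finrank K B := by
  have h1 := Submodule.finrank_sup_add_finrank_inf_eq B (A.map f)
  have h2 := finrank_map_add_finrank_inf_ker f A
  have : FiniteDimensional K (A ⊓ B.comap f : Submodule K V) :=
    Submodule.finiteDimensional_of_le inf_le_left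
  have h3 := finrank_map_add_finrank_inf_ker f (A ⊓ B.comap f)
  have h4 : (A ⊓ B.comap f).map f = B ⊓ A.map f := by
    rw [inf_comm B, Submodule.map_inf_eq_map_inf_comap]
  have h5 : A ⊓ B.comap f ⊓ LinearMap.ker f = A ⊓ LinearMap.ker f := by
    rw [inf_assoc, inf_eq_right.2 (LinearMap.ker_le_comap f)]
  rw [h4, h5] at h3
  omega

omit [Algebra K R] [IsScalarTower K R V] [Module R V] [AddCommGroup G] in
theorem FinDim.of_le {U U0 : G → Submodule K V} (h : FinDim U0) (hle : U ≤ U0) : FinDim U :=
  fun g => by
    have := h g
    exact Submodule.finiteDimensional_of_le (hle g)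

theorem act_one_sub_mon (r : R) (a : G) (U U' : G → Submodule K V) (h : FinDim U)
    (h' : FinDim U') :
    act (1 - mon a) (hf U - hf U') = (hf U - hf (supMap r a U U')) -
      act (mon a) (hf (infComap r a U U') - hf U') := by
  funext g
  have := h (g - a)
  have := h' g
  have h1 := finrank_sup_map_add (mulK K V r) (U (g - a)) (U' g)
  have h2 : infComap r a U U' (g - a) = U (g - a) ⊓ (U' g).comap (mulK K V r) := by
    rw [infComap, sub_add_cancel]
  have h3 : supMap r a U U' g = U' g ⊔ (U (g - a)).map (mulK K V r) := rfl
  rw [← h2, ← h3] at h1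
  simp only [map_sub, map_one, act_mon, LinearMap.sub_apply, Module.End.one_apply, Pi.sub_apply,
    shift_apply, hf]
  omega

/-- Hilbert-Serre for a subquotient `U / U'` of a finitely generated family `U0`, when the
operators outside `J` act nilpotently on the subquotient. -/
theorem hilbertSerre {I : Type*} [Finite I] (T : I → R) (e : I → G)
    (U0 : G → Submodule K V) (hfg : FGen T e U0) (hfd : FinDim U0) (J : Finset I)
    (U U' : G → Submodule K V) (hU : Stable T e U) (hU' : Stable T e U') (hle : U' ≤ U)
    (hle0 : U ≤ U0) (hnil : ∀ i, i ∉ J → ∃ m : ℕ, Maps (T i ^ m) (m • e i) U U') :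
    ∃ p, act (∏ i ∈ J, (1 - mon (e i))) (hf U - hf U') = emb p := by
  classical
  induction J using Finset.induction_on generalizing U U' with
  | empty =>
    have := Fintype.ofFinite I
    have hfin := finite_ne_of_nil_aux T e U0 hfg Finset.univ U U' hU hU' hle hle0
      (fun i hi => absurd (Finset.mem_univ i) hi) (fun i _ => hnil i (by simp))
    obtain ⟨p, hp⟩ := exists_emb_of_finite (hf U - hf U') (hfin.subset fun g hg h => hg (by
      simp only [Pi.sub_apply, hf]
      rw [h, sub_self]))
    exact ⟨p, by simpa using hp⟩
  | insert i J hi ih =>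
    have hCU : supMap (T i) (e i) U U' ≤ U := supMap_le hle (hU i)
    have hUC := le_supMap (T i) (e i) U U'
    have hKU := infComap_le (T i) (e i) U U'
    have hUK : U' ≤ infComap (T i) (e i) U U' := le_infComap hle (hU' i)
    obtain ⟨p1, hp1⟩ := ih U _ hU (stable_supMap (T i) (e i) hU hU') hCU hle0 (fun j hj => by
      by_cases hji : j = i
      · subst hji
        exact ⟨1, by simpa using maps_supMap _ _ _ _⟩
      · obtain ⟨m, hm⟩ := hnil j (by simp [hji, hj])
        exact ⟨m, fun g v hv => hUC _ (hm g v hv)⟩)
    obtain ⟨p2, hp2⟩ := ih _ U' (stable_infComap (T i) (e i) hU hU') hU' hUK (hKU.trans hle0)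
      (fun j hj => by
        by_cases hji : j = i
        · subst hji
          exact ⟨1, by simpa using maps_infComap _ _ _ _⟩
        · obtain ⟨m, hm⟩ := hnil j (by simp [hji, hj])
          exact ⟨m, fun g v hv => hm g v (hKU g hv)⟩)
    refine ⟨p1 - mon (e i) * p2, ?_⟩
    rw [Finset.prod_insert hi, mul_comm, map_mul, Module.End.mul_apply,
      act_one_sub_mon (T i) (e i) U U' (hfd.of_le hle0) (hfd.of_le (hle.trans hle0)), map_sub, hp1,
      ← Module.End.mul_apply, ← map_mul, mul_comm, map_mul, Module.End.mul_apply, hp2, act_emb,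
      emb_sub]

end Vale.Agent.P200
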