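import Vale.Agent.P200.Cliff
import Vale.Agent.P200.Std
import Vale.Agent.P200.Sop

/-! Assembly of the theorem for quadrics. -/

namespace Vale.Agent.P200

open Module MvPolynomial TensorProduct

universe u

theorem exists_matrix_of_isHomogeneous_two {K : Type*} [Field K] {n : ℕ}
    (f : MvPolynomial (Fin n) K) (hf : f.IsHomogeneous 2) :
    ∃ b : Fin n → Fin n → K, f = ∑ j, ∑ l, C (b j l) * X j * X l := by
  classical
  have key : ∀ α : Fin n →₀ ℕ, α.degree = 2 → ∀ c : K,
      ∃ b : Fin n → Fin n → K, monomial α c = ∑ j, ∑ l, C (b j l) * X j * X l := by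
    intro α hα c
    have h2 : Multiset.card (Finsupp.toMultiset α) = 2 := by
      rw [Finsupp.card_toMultiset, ← hα]; rfl
    obtain ⟨x, y, hxy⟩ := Multiset.card_eq_two.1 h2
    have hα' : α = Finsupp.single x 1 + Finsupp.single y 1 := by
      have := congrArg Multiset.toFinsupp hxy
      rw [Finsupp.toMultiset_toFinsupp] at this
      rw [this, Multiset.insert_eq_cons, ← Multiset.singleton_add, map_add]
      simp
    refine ⟨fun j l => if j = x ∧ l = y then c else 0, ?_⟩
    rw [Finset.sum_eq_single x, Finset.sum_eq_single y]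
    · simp only [and_self, if_true]
      rw [hα', X, X, C_mul_monomial, monomial_mul]
      simp
    · intro l _ hl; simp [hl]
    · simp
    · intro j _ hj; simp [hj]
    · simp
  choose! b hb using key
  refine ⟨fun j l => ∑ α ∈ f.support, b α (coeff α f) j l, ?_⟩
  conv_lhs => rw [f.as_sum]
  rw [Finset.sum_congr rfl (fun α hα => hb α (by
    have := hf (mem_support_iff.1 hα)
    rw [Finsupp.degree_eq_weight_one]; exact this) (coeff α f))]
  rw [Finset.sum_comm]
  refine Finset.sum_congr rfl fun j _ => ?_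
  rw [Finset.sum_comm]
  refine Finset.sum_congr rfl fun l _ => ?_
  simp [Finset.sum_mul]

section Lin

variable {K : Type*} [Field K] {D : Type*} [Ring D] [Algebra K D] {n : ℕ}
  (I : Ideal (MvPolynomial (Fin n) K))

theorem lin_mul_lin (c c' : Fin n → D) :
    lin I c * lin I c' =
      ∑ j, ∑ l, (c j * c' l) ⊗ₜ[K] Ideal.Quotient.mk I (X j * X l) := by
  unfold lin
  refine (Finset.sum_mul_sum (R := D ⊗[K] (MvPolynomial (Fin n) K ⧸ I)) _ _ _ _).trans ?_
  simp

theorem sum_alt_eq_zero (c : Fin n → Fin n → D) (h1 : ∀ j, c j j = 0)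
    (h2 : ∀ j l, c j l + c l j = 0) :
    ∑ j, ∑ l, c j l ⊗ₜ[K] Ideal.Quotient.mk I (X j * X l) = 0 := by
  rw [← Finset.sum_product']
  refine Finset.sum_involution (fun p _ => p.swap) ?_ ?_ (by simp) (by simp)
  · rintro ⟨j, l⟩ _
    simp only [Prod.swap_prod_mk]
    rw [mul_comm (X l) (X j), ← add_tmul, h2, zero_tmul]
  · rintro ⟨j, l⟩ _ h h'
    apply h
    simp only [Prod.swap_prod_mk, Prod.mk.injEq] at h'
    rw [h'.1, h1, zero_tmul]

theorem lin_comm_of (c c' : Fin n → D) (h : ∀ j l, c j * c' l = c' l * c j) :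
    lin I c * lin I c' = lin I c' * lin I c := by
  rw [lin_mul_lin, lin_mul_lin, Finset.sum_comm]
  refine Finset.sum_congr rfl fun j _ => Finset.sum_congr rfl fun l _ => ?_
  rw [h, mul_comm (X l) (X j)]

theorem lin_anticomm_of (c c' : Fin n → D) (h : ∀ j l, c j * c' l = -(c' l * c j)) :
    lin I c * lin I c' = -(lin I c' * lin I c) := by
  rw [lin_mul_lin, lin_mul_lin, Finset.sum_comm, ← Finset.sum_neg_distrib]
  refine Finset.sum_congr rfl fun j _ => ?_
  rw [← Finset.sum_neg_distrib]
  refine Finset.sum_congr rfl fun l _ => ?_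
  rw [h, mul_comm (X l) (X j), neg_tmul]

end Lin

theorem egh_quadrics_add {K : Type u} [Field K] {c m : ℕ}
    (f : Fin c → MvPolynomial (Fin (c + m)) K) (hf : ∀ i, (f i).IsHomogeneous 2)
    (hreg : ∀ i g, f i * g ∈ Ideal.span (f '' {j | j < i}) → g ∈ Ideal.span (f '' {j | j < i}))
    (I : Ideal (MvPolynomial (Fin (c + m)) K)) (hfI : ∀ i, f i ∈ I) :
    ∃ s : Set (Fin (c + m) →₀ ℕ), (∀ i : Fin c, Finsupp.single (Fin.castAdd m i) 2 ∈ s) ∧
      ∀ d : ℕ, finrank K ↥(Submodule.restrictScalars K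
          (Ideal.span ((fun α => monomial α (1 : K)) '' s)) ⊓
            homogeneousSubmodule (Fin (c + m)) K d) =
        finrank K ↥(Submodule.restrictScalars K I ⊓ homogeneousSubmodule (Fin (c + m)) K d) := by
  classical
  let K' := AlgebraicClosure K
  obtain ⟨z, hz, hrad⟩ := exists_linear_sop f (fun _ => 2) (fun _ => two_pos) hf hreg K'
  choose b hb using fun i => exists_matrix_of_isHomogeneous_two (f i) (hf i)
  let B : Fin c ⊕ Fin m → Fin (c + m) → Fin (c + m) → K' :=
    Sum.elim (fun i j l => algebraMap K K' (b i j l)) (fun r j l => z r j * z r l)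
  have hprim : ∀ j, (X j : MvPolynomial (Fin (c + m)) K') ∈
      (Ideal.span (Set.range fun k => ∑ j, ∑ l, C (B k j l) * X j * X l)).radical := by
    intro j
    refine Ideal.radical_le_radical_iff.2 ?_ (hrad j)
    rw [Ideal.span_le]
    rintro x (⟨i, rfl⟩ | ⟨r, rfl⟩)
    · refine Ideal.le_radical (Ideal.subset_span ⟨Sum.inl i, ?_⟩)
      simp only [B, Sum.elim_inl]
      rw [hb i]
      simp
    · refine ⟨2, Ideal.subset_span ⟨Sum.inr r, ?_⟩⟩
      simp only [B, Sum.elim_inr]
      rw [pow_two, Finset.sum_mul_sum]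
      refine Finset.sum_congr rfl fun j _ => Finset.sum_congr rfl fun l _ => ?_
      rw [C_mul]; ring
  obtain ⟨Z, _, _, D, _, _, γ, t, h1, h2, h3, h4⟩ := exists_clifford B hprim z hz
  let _ : Algebra K Z := ((algebraMap K' Z).comp (algebraMap K K')).toAlgebra
  let _ : Algebra K D := Algebra.compHom D (algebraMap K Z)
  have : IsScalarTower K Z D := IsScalarTower.of_algebraMap_eq fun _ => rfl
  let ζ : Fin m → Fin (c + m) → D := fun r j => algebraMap Z D (algebraMap K' Z (z r j))
  let Γ : Fin (c + m) → Fin (c + m) → D := Fin.append γ ζ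
  have hζ : ∀ r j (x : D), ζ r j * x = x * ζ r j := fun r j x => Algebra.commutes _ _
  have hcomm : ∀ i k, ∃ ε : Z, ε ≠ 0 ∧
      lin I (Γ i) * lin I (Γ k) = ε • (lin I (Γ k) * lin I (Γ i)) := by
    intro i k
    refine Fin.addCases (fun i => ?_) (fun i => ?_) i
    · refine Fin.addCases (fun k => ?_) (fun k => ?_) k
      · by_cases hik : i = k
        · exact ⟨1, one_ne_zero, by rw [hik, one_smul]⟩
        · refine ⟨-1, by simp, ?_⟩
          simp only [Γ, Fin.append_left]
          rw [lin_anticomm_of I _ _ fun j l => h3 i k j l hik]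
          exact (neg_one_smul Z _).symm
      · refine ⟨1, one_ne_zero, ?_⟩
        simp only [Γ, Fin.append_left, Fin.append_right, one_smul]
        exact lin_comm_of I _ _ fun j l => (hζ k l _).symm
    · refine ⟨1, one_ne_zero, ?_⟩
      simp only [Γ, Fin.append_right, one_smul]
      exact lin_comm_of I _ _ fun j l => hζ i j _
  have hspan : Submodule.span D (Set.range Γ) = ⊤ := by
    rw [← h4]
    congr 1
    ext x
    constructor
    · rintro ⟨i, rfl⟩
      refine Fin.addCases (fun i => ?_) (fun i => ?_) i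
      · left; exact ⟨i, by simp [Γ]⟩
      · right; exact ⟨i, by simp [Γ, ζ]⟩
    · rintro (⟨i, rfl⟩ | ⟨i, rfl⟩)
      · exact ⟨Fin.castAdd m i, by simp [Γ]⟩
      · exact ⟨Fin.natAdd c i, by simp [Γ, ζ]⟩
  have hpow : ∀ l ∈ Set.range (Fin.castAdd m : Fin c → Fin (c + m)), lin I (Γ l) ^ 2 ∈
      Submodule.span D {x | ∃ j, l < j ∧ x = lin I (Γ j) ^ 2} := by
    rintro _ ⟨i, rfl⟩
    have e1 : lin I (γ i) ^ 2 = ∑ k, algebraMap Z D (t i k) •
        ∑ j, ∑ l, algebraMap Z D (algebraMap K' Z (B k j l)) ⊗ₜ[K]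
          Ideal.Quotient.mk I (X j * X l) := by
      have e0 := sum_alt_eq_zero I (fun j l => γ i j * γ i l -
        algebraMap Z D (∑ k, t i k * algebraMap K' Z (B k j l))) (fun j => by simp [h1])
        (fun j l => by
          have := h2 i j l
          simp only [map_add, mul_add, Finset.sum_add_distrib] at this
          rw [sub_add_sub_comm, this, sub_self])
      simp only [sub_tmul, Finset.sum_sub_distrib, sub_eq_zero] at e0
      rw [pow_two, lin_mul_lin, e0]
      simp only [Finset.smul_sum, smul_tmul', smul_eq_mul, map_sum, map_mul, sum_tmul]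
      rw [Finset.sum_comm (s := (Finset.univ : Finset (Fin c ⊕ Fin m)))]
      refine Finset.sum_congr rfl fun j _ => ?_
      rw [Finset.sum_comm]
    simp only [Γ, Fin.append_left]
    rw [e1]
    refine Submodule.sum_mem _ fun k _ => Submodule.smul_mem _ _ ?_
    rcases k with k | r
    · have : ∑ j, ∑ l, algebraMap Z D (algebraMap K' Z (B (Sum.inl k) j l)) ⊗ₜ[K]
          Ideal.Quotient.mk I (X j * X l) = (1 : D) ⊗ₜ[K] Ideal.Quotient.mk I (f k) := by
        rw [hb k]
        simp only [map_sum, tmul_sum]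
        refine Finset.sum_congr rfl fun j _ => Finset.sum_congr rfl fun l _ => ?_
        have e2 : algebraMap Z D (algebraMap K' Z (B (Sum.inl k) j l)) = b k j l • (1 : D) := by
          rw [Algebra.smul_def, mul_one]; rfl
        rw [e2, smul_tmul, mul_assoc, ← smul_eq_C_mul]
        rfl
      rw [this, Ideal.Quotient.eq_zero_iff_mem.2 (hfI k), tmul_zero]
      exact Submodule.zero_mem _
    · refine Submodule.subset_span ⟨Fin.natAdd c r, ?_, ?_⟩
      · rw [Fin.lt_def]; simp; omega
      · rw [pow_two, lin_mul_lin]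
        simp [B, ζ]
  obtain ⟨s, hs1, hs2⟩ := std (Z := Z) I Γ hcomm hspan _ (fun _ => 2) (fun _ _ => two_pos) hpow
  exact ⟨s, fun i => hs1 _ ⟨i, rfl⟩, hs2⟩

end Vale.Agent.P200
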